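import Vale.Agent.P131.Oper

namespace Vale.Agent.P131

open scoped symmDiff
open Finset

noncomputable section

def cm (P A : Op) : Op := A * P - P * A

lemma cm_mem {P A : Op} (hP : P ∈ N) (hA : A ∈ N) : cm P A ∈ N :=
  N.sub_mem (N.mul_mem hA hP) (N.mul_mem hP hA)

lemma cm_star {P A : Op} (h : Proj P) (hP : P ∈ N) (hA : A ∈ N) :
    ‖cm P (star A) ξ‖ = ‖cm P A ξ‖ := by
  rw [← norm_star_ξ (cm_mem hP hA), ← norm_neg]
  simp [cm, h.st]

lemma cm_inv {P C : Op} (h : Proj P) (hP : P ∈ N) (hC : C ∈ N) (hi : P * (C * P) = C * P) :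
    ‖cm P C ξ‖ ^ 2 = ‖star C (P ξ)‖ ^ 2 - ‖C (P ξ)‖ ^ 2 := by
  have h1 : P * star C * P = P * star C := by
    have := congrArg star hi
    simpa [h.st] using this
  have h2 : cm P (star C) ξ = star C (P ξ) - P (star C (P ξ)) := by
    rw [cm, ← h1]; rfl
  have h3 : ‖P (star C (P ξ))‖ = ‖C (P ξ)‖ := by
    rw [← mul_ap C, ← norm_star_ξ (N.mul_mem hC hP), star_mul, h.st, ← h1]
    rfl
  rw [← cm_star h hP hC, h2, ← h3, ← h.pyth (star C (P ξ))]
  ring

lemma cm_mul {P A B : Op} (hP : P ∈ N) (hA : A ∈ N) (hB : B ∈ N) (h1 : ∀ v, ‖A v‖ ≤ ‖v‖)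
    (h2 : ∀ v, ‖star B v‖ ≤ ‖v‖) : ‖cm P (A * B) ξ‖ ≤ ‖cm P A ξ‖ + ‖cm P B ξ‖ := by
  have e : cm P (A * B) = cm P A * B + A * cm P B := by
    simp only [cm, mul_sub, sub_mul, mul_assoc]; abel
  rw [e, add_apply]
  refine (norm_add_le _ _).trans (add_le_add ?_ (h1 _))
  rw [← norm_star_ξ (N.mul_mem (cm_mem hP hA) hB), star_mul, mul_ap,
    ← norm_star_ξ (cm_mem hP hA)]
  exact h2 _

structure Hyp (T P : Op) : Prop where
  pr : Proj P
  inv : ∀ A, Commute A T → P * (A * P) = A * P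

lemma Proj.comm {P A : Op} (h : Proj P) (hA : star A = A) (hi : P * (A * P) = A * P) :
    Commute A P := by
  have := congrArg star hi
  simp only [star_mul, h.st, hA] at this
  rw [Commute, SemiconjBy, ← hi, ← this, mul_assoc]

lemma Hyp.comm {T P A : Op} (h : Hyp T P) (hA : star A = A) (hT : Commute A T) : Commute A P :=
  h.pr.comm hA (h.inv A hT)

lemma Hyp.mem {T P : Op} (h : Hyp T P) (hT : T ∈ N) : P ∈ N := mem_N.mpr fun a =>
  ⟨h.comm (X'_star a) (mem_N.mp hT a).1, h.comm (Z'_star a) (mem_N.mp hT a).2⟩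

lemma star_ind (p : Prop) : star (ind p) = ind p := by
  unfold ind; split_ifs <;> simp

lemma DL_Z (i : ℕ) {φ : Finset ℕ → ℂ} (h : Cyl φ) :
    DL φ * Z {i} = DL fun S => φ S * sg {i} S := by
  rw [Z_eq, DL_mul h (cyl_sg _)]

variable {L : ℕ → ℕ} {ε : ℕ → ℝ} {P : Op}

def cc (j : ℕ) (S : Finset ℕ) : ℂ := if xb j ∈ S then 1 / 2 else 1

lemma cyl_cc (j : ℕ) : Cyl (cc j) := by
  classical
  have := (Cyl.mem (xb j)).map fun p => if p then (1 / 2 : ℂ) else 1
  refine (congrArg Cyl ?_).mp this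
  funext S
  by_cases h : xb j ∈ S <;> simp [h, cc]

lemma bessel_one (h : Hyp (T L ε) P) {j i : ℕ} (hi : i < L j) :
    ‖cm P (Z {xb j}) ξ‖ ^ 2 ≤
      128 * ‖P (DL (fun S => cc j S * cc j S) (P ξ)) (∅, {sb j i})‖ := by
  have hP := h.mem (T_mem L ε)
  have c1 : Cyl fun S => ind (sb j i ∉ S) := (Cyl.mem _).map fun p => ind (¬ p)
  have c2 : Cyl fun S => ind (sb j i ∈ S) := (Cyl.mem _).map ind
  have c3 := (cyl_cc j).mul c1
  have c4 := (cyl_cc j).mul c2
  set A := DL fun S => cc j S * ind (sb j i ∉ S) with hA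
  set A' := DL fun S => cc j S * ind (sb j i ∈ S) with hA'
  have nc : ∀ (p : Finset ℕ → Prop) (S : Finset ℕ), ‖cc j S * ind (p S)‖ ≤ 1 := by
    intro p S
    rw [norm_mul]
    refine mul_le_one₀ ?_ (norm_nonneg _) (norm_ind _)
    unfold cc
    split_ifs <;> norm_num
  have sc : ∀ (p : Finset ℕ → Prop) (S : Finset ℕ),
      star (cc j S * ind (p S)) = cc j S * ind (p S) := by
    intro p S
    rw [star_mul', star_ind]
    unfold cc
    split_ifs <;> simp
  have sA : star A = A := by rw [hA, DL, DD_star famL c3]; exact congrArg _ (funext (sc _))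
  have sA' : star A' = A' := by rw [hA', DL, DD_star famL c4]; exact congrArg _ (funext (sc _))
  have xA : X {sb j i} * A = A' * X {sb j i} := by
    rw [hA, X_DL _ c3]
    congr 2
    funext S
    simp [cc, mem_symmDiff]
  have eC : X {sb j i} * A = Y L j i * DL fun S => ind (sb j i ∉ S) := by
    rw [Y, mul_assoc, DL_mul (cyl_ψ L j i) c1, hA]
    congr 2
    funext S
    by_cases hS : sb j i ∈ S
    · simp [ind, hS]
    · rw [ψ_val L hi hS, cc]
  have hZ := h.comm (Z_star _) (T_Z L ε j i)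
  have cT : Commute (X {sb j i} * A) (T L ε) := by
    rw [eC]
    refine (T_Y L ε j i).mul_left ?_
    have : (DL fun S => ind (sb j i ∉ S)) = e0 (Z {sb j i}) := by
      rw [e0, Z_eq, ← DD_one (z := Zs), DL, DL, ← DD_add (Cyl.const _) (cyl_sg _),
        ← DD_smul _ ((Cyl.const _).two (cyl_sg _) (· + ·))]
      congr 1
      funext S
      by_cases hS : sb j i ∈ S
      · simp [ind, hS, sg_single]
      · simp [ind, hS, sg_single]; norm_num
    rw [this]
    exact (e0_comm (T_Z L ε j i).symm).symm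
  set C := X {sb j i} * A with hC
  have hCN : C ∈ N := N.mul_mem (X_mem _) (DL_mem _)
  have sC : star C = X {sb j i} * A' := by
    rw [xA, star_mul, sA', X_star]
  have n1 : ∀ v, ‖C v‖ ≤ ‖v‖ := fun v => by
    rw [hC, mul_ap, X_norm]
    exact (DD_norm famL c3 (nc _) v).trans (one_mul _).le
  have n2 : ∀ v, ‖star C v‖ ≤ ‖v‖ := fun v => by
    rw [sC, mul_ap, X_norm]
    exact (DD_norm famL c4 (nc _) v).trans (one_mul _).le
  have p1 : star C * C = A * A := by
    rw [hC, star_mul, sA, X_star, mul_assoc, ← mul_assoc (X _), X_sq, one_mul]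
  have p2 : C * star C = A' * A' := by
    rw [sC, xA, mul_assoc, ← mul_assoc (X _), X_sq, one_mul]
  have s1 : A * A + A' * A' = (5 / 8 : ℂ) • 1 + (3 / 8 : ℂ) • Z {xb j} := by
    rw [hA, hA', DL_mul c3 c3, DL_mul c4 c4, Z_eq, DL, DL, DL, ← DD_add (c3.mul c3) (c4.mul c4),
      ← DD_const (z := Zs), ← DD_smul _ (cyl_sg _),
      ← DD_add (Cyl.const _) ((cyl_sg _).map ((3 / 8 : ℂ) * ·))]
    congr 1
    funext S
    by_cases h1 : sb j i ∈ S <;> by_cases h2 : xb j ∈ S <;>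
      simp [ind, cc, h1, h2, sg_single] <;> norm_num
  have s2 : A' * A' - A * A = -(DL (fun S => cc j S * cc j S) * Z {sb j i}) := by
    rw [DL_Z _ ((cyl_cc j).mul (cyl_cc j)), sub_eq_iff_eq_add, neg_add_eq_sub, eq_sub_iff_add_eq,
      hA, hA', DL_mul c3 c3, DL_mul c4 c4, DL, DL, DL,
      ← DD_add (c4.mul c4) (((cyl_cc j).mul (cyl_cc j)).mul (cyl_sg _))]
    congr 1
    funext S
    by_cases h1 : sb j i ∈ S <;> simp [ind, h1, sg_single]
  have b1 := cm_mul hP (star_mem hCN) hCN n2 n2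
  have b2 := cm_mul hP hCN (star_mem hCN) n1 (by rw [star_star]; exact n1)
  rw [cm_star h.pr hP hCN] at b1 b2
  have b3 : cm P (star C * C) ξ + cm P (C * star C) ξ = (3 / 8 : ℂ) • cm P (Z {xb j}) ξ := by
    have : cm P (star C * C) + cm P (C * star C) = (3 / 8 : ℂ) • cm P (Z {xb j}) := by
      have e : cm P (star C * C) + cm P (C * star C) = cm P (A * A + A' * A') := by
        rw [p1, p2]; simp only [cm, mul_add, add_mul]; abel
      rw [e, s1]
      simp only [cm, mul_add, add_mul, smul_mul_assoc, mul_smul_comm, one_mul, mul_one, smul_sub]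
      abel
    rw [← add_apply, this, smul_apply]
  have b4 := norm_add_le (cm P (star C * C) ξ) (cm P (C * star C) ξ)
  rw [b3, norm_smul] at b4
  have b5 : ‖(3 / 8 : ℂ)‖ = 3 / 8 := by simp
  have b6 := cm_inv h.pr hP hCN (h.inv C cT)
  rw [normsq_eq (star C), normsq_eq C, star_star, p1, p2, ← Complex.sub_re, ← inner_sub_right,
    ← sub_apply, s2, neg_apply, mul_ap, ← mul_ap (Z _), hZ.eq, mul_ap, Z_ξ', inner_neg_right,
    h.pr.inner_left] at b6
  have b7 : inner ℂ ξ (P (DL (fun S => cc j S * cc j S) (P (dl (∅, {sb j i}))))) =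
      inner ℂ (P (DL (fun S => cc j S * cc j S) (P ξ))) (dl (∅, {sb j i})) := by
    have sD : star (DL fun S => cc j S * cc j S) = DL fun S => cc j S * cc j S := by
      rw [DL, DD_star famL ((cyl_cc j).mul (cyl_cc j))]
      congr 1
      funext S
      unfold cc
      split_ifs <;> simp
    rw [h.pr.inner_left, ← h.pr.inner_left ξ, ← ContinuousLinearMap.adjoint_inner_left,
      ← ContinuousLinearMap.star_eq_adjoint, sD]
  have b8 : ‖cm P C ξ‖ ^ 2 ≤ ‖P (DL (fun S => cc j S * cc j S) (P ξ)) (∅, {sb j i})‖ := by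
    rw [b6, b7, ← inner_dl, norm_inner_symm, ← norm_neg]
    exact Complex.re_le_norm _
  rw [b5] at b4
  have b9 : ‖cm P (Z {xb j}) ξ‖ ≤ 32 / 3 * ‖cm P C ξ‖ := by linarith
  have b10 := pow_le_pow_left₀ (norm_nonneg _) b9 2
  nlinarith [sq_nonneg ‖cm P C ξ‖]

lemma sum_sq_le (v : H) (s : Finset Λ) : ∑ x ∈ s, ‖v x‖ ^ 2 ≤ ‖v‖ ^ 2 := by
  have := lp.sum_rpow_le_norm_rpow (p := 2) (by norm_num) v s
  simpa using this

lemma bessel (h : Hyp (T L ε) P) (j : ℕ) :
    L j * (‖cm P (Z {xb j}) ξ‖ ^ 2) ^ 2 ≤ 128 ^ 2 := by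
  set v := P (DL (fun S => cc j S * cc j S) (P ξ)) with hv
  have h1 : ‖v‖ ≤ 1 := by
    refine (h.pr.le _).trans ((DD_norm famL ((cyl_cc j).mul (cyl_cc j)) (C := 1) (fun S => ?_)
      _).trans ?_)
    · unfold cc
      split_ifs <;> norm_num
    · rw [one_mul]
      exact (h.pr.le _).trans (dl_norm _).le
  have h2 := sum_sq_le v ((range (L j)).image fun i => (∅, {sb j i}))
  rw [sum_image fun i _ i' _ hh => by simpa using hh] at h2
  have h3 := card_nsmul_le_sum (range (L j)) (fun i => 128 ^ 2 * ‖v (∅, {sb j i})‖ ^ 2)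
    ((‖cm P (Z {xb j}) ξ‖ ^ 2) ^ 2) fun i hi => by
      rw [← mul_pow]
      exact pow_le_pow_left₀ (sq_nonneg _) (bessel_one h (mem_range.mp hi)) 2
  rw [card_range, nsmul_eq_mul, ← mul_sum] at h3
  have h4 := pow_le_pow_left₀ (norm_nonneg _) h1 2
  nlinarith

end

end Vale.Agent.P131
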