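import Vale.Agent.P131.Pauli

namespace Vale.Agent.P131

open scoped symmDiff
open Finset

noncomputable section

structure Fam (z : ℕ → Op) : Prop where
  st : ∀ i, star (z i) = z i
  sq : ∀ i, z i * z i = 1
  comm : ∀ i j, Commute (z i) (z j)

def e0 (u : Op) : Op := (1 / 2 : ℂ) • (1 + u)
def e1 (u : Op) : Op := (1 / 2 : ℂ) • (1 - u)

lemma e0_add_e1 (u : Op) : e0 u + e1 u = 1 := by
  unfold e0 e1; module

lemma e0_sub_e1 (u : Op) : e0 u - e1 u = u := by
  unfold e0 e1; module

lemma e00 {u : Op} (h : u * u = 1) : e0 u * e0 u = e0 u := by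
  simp only [e0, smul_mul_smul, mul_add, add_mul, h, one_mul, mul_one]; module

lemma e11 {u : Op} (h : u * u = 1) : e1 u * e1 u = e1 u := by
  simp only [e1, smul_mul_smul, mul_sub, sub_mul, h, one_mul, mul_one]; module

lemma e01 {u : Op} (h : u * u = 1) : e0 u * e1 u = 0 := by
  simp only [e0, e1, smul_mul_smul, mul_sub, add_mul, h, one_mul, mul_one]; module

lemma e10 {u : Op} (h : u * u = 1) : e1 u * e0 u = 0 := by
  simp only [e0, e1, smul_mul_smul, mul_add, sub_mul, h, one_mul, mul_one]; module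

lemma e0_comm {A u : Op} (h : Commute A u) : Commute A (e0 u) :=
  ((Commute.one_right A).add_right h).smul_right _

lemma e1_comm {A u : Op} (h : Commute A u) : Commute A (e1 u) :=
  ((Commute.one_right A).sub_right h).smul_right _

def D (z : ℕ → Op) : ℕ → (Finset ℕ → ℂ) → Op
  | 0, φ => φ ∅ • 1
  | m + 1, φ => e0 (z m) * D z m φ + e1 (z m) * D z m fun S => φ (insert m S)

variable {z : ℕ → Op}

lemma D_commute {A : Op} (h : ∀ i, Commute A (z i)) (m : ℕ) :
    ∀ φ, Commute A (D z m φ) := by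
  induction m with
  | zero => intro φ; exact (Commute.one_right A).smul_right _
  | succ m ih =>
    intro φ
    exact ((e0_comm (h m)).mul_right (ih _)).add_right ((e1_comm (h m)).mul_right (ih _))

lemma D_congr (m : ℕ) : ∀ φ ψ : Finset ℕ → ℂ, (∀ S ⊆ range m, φ S = ψ S) →
    D z m φ = D z m ψ := by
  induction m with
  | zero => intro φ ψ h; simp only [D]; rw [h ∅ (empty_subset _)]
  | succ m ih =>
    intro φ ψ h
    simp only [D]
    rw [ih φ ψ fun S hS => h S (hS.trans (range_mono (Nat.le_succ m))),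
      ih (fun S => φ (insert m S)) (fun S => ψ (insert m S)) fun S hS => h _ (by
        rw [range_add_one]; exact insert_subset_insert m hS)]

lemma D_add (m : ℕ) : ∀ φ ψ : Finset ℕ → ℂ,
    D z m (fun S => φ S + ψ S) = D z m φ + D z m ψ := by
  induction m with
  | zero => intro φ ψ; simp only [D, add_smul]
  | succ m ih => intro φ ψ; simp only [D, ih, mul_add]; abel

lemma D_smul (c : ℂ) (m : ℕ) : ∀ φ : Finset ℕ → ℂ,
    D z m (fun S => c * φ S) = c • D z m φ := by
  induction m with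
  | zero => intro φ; simp only [D, mul_smul]
  | succ m ih => intro φ; simp only [D, ih, mul_smul_comm, smul_add]

lemma D_const (c : ℂ) (m : ℕ) : D z m (fun _ => c) = c • 1 := by
  induction m with
  | zero => rfl
  | succ m ih => simp only [D, ih, ← add_mul, e0_add_e1, one_mul]

lemma D_mul (hz : Fam z) (m : ℕ) : ∀ φ ψ : Finset ℕ → ℂ,
    D z m φ * D z m ψ = D z m fun S => φ S * ψ S := by
  induction m with
  | zero => intro φ ψ; simp only [D, smul_mul_smul, mul_one]
  | succ m ih =>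
    intro φ ψ
    have c0 : ∀ χ, D z m χ * e0 (z m) = e0 (z m) * D z m χ := fun χ =>
      (e0_comm (D_commute (hz.comm m) m χ).symm).eq
    have c1 : ∀ χ, D z m χ * e1 (z m) = e1 (z m) * D z m χ := fun χ =>
      (e1_comm (D_commute (hz.comm m) m χ).symm).eq
    have k : ∀ a b : Op, ∀ χ χ', D z m χ * b = b * D z m χ →
        a * D z m χ * (b * D z m χ') = (a * b) * (D z m χ * D z m χ') := by
      intro a b χ χ' h
      rw [mul_assoc, ← mul_assoc (D z m χ), h]
      simp only [mul_assoc]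
    simp only [D, mul_add, add_mul]
    rw [k _ _ _ _ (c0 _), k _ _ _ _ (c0 _), k _ _ _ _ (c1 _), k _ _ _ _ (c1 _), e00 (hz.sq m),
      e11 (hz.sq m), e01 (hz.sq m), e10 (hz.sq m), ih, ih, ih, ih]
    simp

lemma D_star (hz : Fam z) (m : ℕ) : ∀ φ : Finset ℕ → ℂ,
    star (D z m φ) = D z m fun S => star (φ S) := by
  induction m with
  | zero => intro φ; simp only [D, star_smul, star_one]
  | succ m ih =>
    intro φ
    have s0 : star (e0 (z m)) = e0 (z m) := by simp [e0, hz.st]
    have s1 : star (e1 (z m)) = e1 (z m) := by simp [e1, hz.st]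
    simp only [D, star_add, star_mul, ih, s0, s1]
    rw [(e0_comm (D_commute (hz.comm m) m _).symm).eq,
      (e1_comm (D_commute (hz.comm m) m _).symm).eq]

def Dep {α : Type} (m : ℕ) (φ : Finset ℕ → α) : Prop :=
  ∀ S S' : Finset ℕ, (∀ i < m, (i ∈ S ↔ i ∈ S')) → φ S = φ S'

lemma Dep.mono {α : Type} {m n : ℕ} {φ : Finset ℕ → α} (h : Dep m φ) (hmn : m ≤ n) : Dep n φ :=
  fun S S' hS => h S S' fun i hi => hS i (by omega)

lemma D_stable {m : ℕ} {φ : Finset ℕ → ℂ} (h : Dep m φ) (n : ℕ) (hn : m ≤ n) :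
    D z n φ = D z m φ := by
  induction n, hn using Nat.le_induction with
  | base => rfl
  | succ n hn ih =>
    have : (fun S => φ (insert n S)) = φ := funext fun S => h _ _ fun i hi => by
      rw [mem_insert]
      exact ⟨fun h => h.resolve_left (by omega), Or.inr⟩
    simp only [D, this, ← add_mul, e0_add_e1, one_mul, ih]

lemma D_shift {u : Op} {a : Finset ℕ} (h : ∀ i, u * z i = sg {i} a • (z i * u)) (m : ℕ) :
    ∀ φ : Finset ℕ → ℂ, u * D z m φ = D z m (fun S => φ (S ∆ (a ∩ range m))) * u := by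
  induction m with
  | zero => intro φ; simp [D]
  | succ m ih =>
    intro φ
    have hm := h m
    rw [sg_single] at hm
    simp only [D, mul_add, add_mul, ← mul_assoc]
    by_cases ha : m ∈ a
    · rw [if_pos ha] at hm
      have h0 : u * e0 (z m) = e1 (z m) * u := by
        simp only [e0, e1, mul_smul_comm, smul_mul_assoc, mul_add, sub_mul, hm, mul_one, one_mul]
        module
      have h1 : u * e1 (z m) = e0 (z m) * u := by
        simp only [e0, e1, mul_smul_comm, smul_mul_assoc, mul_sub, add_mul, hm]; simp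
      rw [h0, h1, mul_assoc, mul_assoc, ih, ih, add_comm, mul_assoc, mul_assoc]
      congr 3
      · refine D_congr m _ _ fun S hS => congrArg φ ?_
        ext i
        have : i ∈ S → i < m := fun hi => mem_range.mp (hS hi)
        simp only [mem_insert, mem_symmDiff, mem_inter, mem_range]
        by_cases him : i = m
        · subst him; simpa [ha] using fun h => lt_irrefl _ (this h)
        · have : i < m + 1 ↔ i < m := by omega
          simp [this, him]
      · refine D_congr m _ _ fun S hS => congrArg φ ?_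
        ext i
        have : i ∈ S → i < m := fun hi => mem_range.mp (hS hi)
        simp only [mem_insert, mem_symmDiff, mem_inter, mem_range]
        by_cases him : i = m
        · subst him; simpa [ha] using fun h => lt_irrefl _ (this h)
        · have : i < m + 1 ↔ i < m := by omega
          simp [this, him]
    · rw [if_neg ha, one_smul] at hm
      have h0 : u * e0 (z m) = e0 (z m) * u := (e0_comm hm).eq
      have h1 : u * e1 (z m) = e1 (z m) * u := (e1_comm hm).eq
      have h2 : a ∩ range (m + 1) = a ∩ range m := by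
        rw [range_add_one, inter_insert_of_notMem ha]
      rw [h0, h1, mul_assoc, mul_assoc, ih, ih, mul_assoc, mul_assoc, h2]
      congr 3
      refine D_congr m _ _ fun S hS => congrArg φ ?_
      ext i
      simp only [mem_insert, mem_symmDiff, mem_inter, mem_range]
      by_cases him : i = m
      · subst him; simp
      · simp [him]

def Cyl {α : Type} (φ : Finset ℕ → α) : Prop := ∃ m, Dep m φ

lemma Cyl.two {α β γ : Type} {φ : Finset ℕ → α} {ψ : Finset ℕ → β} (h : Cyl φ) (h' : Cyl ψ)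
    (F : α → β → γ) : Cyl fun S => F (φ S) (ψ S) := by
  obtain ⟨m, hm⟩ := h
  obtain ⟨n, hn⟩ := h'
  exact ⟨max m n, fun S S' hS => by
    simp only [hm.mono (le_max_left m n) S S' hS, hn.mono (le_max_right m n) S S' hS]⟩

lemma Cyl.map {α β : Type} {φ : Finset ℕ → α} (h : Cyl φ) (F : α → β) :
    Cyl fun S => F (φ S) := h.two h fun a _ => F a

lemma Cyl.const {α : Type} (c : α) : Cyl fun _ => c := ⟨0, fun _ _ _ => rfl⟩

lemma Cyl.mul {φ ψ : Finset ℕ → ℂ} (h : Cyl φ) (h' : Cyl ψ) : Cyl fun S => φ S * ψ S :=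
  h.two h' (· * ·)

lemma Cyl.shift {α : Type} {φ : Finset ℕ → α} (h : Cyl φ) (a : Finset ℕ) :
    Cyl fun S => φ (S ∆ a) := by
  obtain ⟨m, hm⟩ := h
  exact ⟨m, fun S S' hS => hm _ _ fun i hi => by simp only [mem_symmDiff, hS i hi]⟩

lemma Cyl.inter (G : Finset ℕ) : Cyl fun S => S ∩ G := by
  obtain ⟨m, hm⟩ := G.exists_nat_subset_range
  refine ⟨m, fun S S' hS => ?_⟩
  ext i
  simp only [mem_inter]
  exact and_congr_left fun hi => hS i (mem_range.mp (hm hi))

lemma Cyl.mem (i : ℕ) : Cyl fun S => i ∈ S :=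
  ⟨i + 1, fun _ _ hS => propext (hS i (Nat.lt_succ_self i))⟩

lemma Cyl.prod {ι : Type} (s : Finset ι) {φ : ι → Finset ℕ → ℂ} (h : ∀ i ∈ s, Cyl (φ i)) :
    Cyl fun S => ∏ i ∈ s, φ i S := by
  classical
  induction s using Finset.induction_on with
  | empty => exact Cyl.const _
  | insert i s hi ih =>
    simp only [prod_insert hi]
    exact (h i (mem_insert_self _ _)).mul (ih fun j hj => h j (mem_insert_of_mem hj))

lemma Cyl.sum {ι : Type} (s : Finset ι) {φ : ι → Finset ℕ → ℂ} (h : ∀ i ∈ s, Cyl (φ i)) :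
    Cyl fun S => ∑ i ∈ s, φ i S := by
  classical
  induction s using Finset.induction_on with
  | empty => exact Cyl.const _
  | insert i s hi ih =>
    simp only [sum_insert hi]
    exact (h i (mem_insert_self _ _)).two (ih fun j hj => h j (mem_insert_of_mem hj)) (· + ·)

lemma cyl_sg (β : Finset ℕ) : Cyl (sg β) := by
  have := (Cyl.inter β).map fun S => (-1 : ℂ) ^ S.card
  convert this using 2 with S
  rw [sg_eq, inter_comm]

open Classical in
def DD (z : ℕ → Op) (φ : Finset ℕ → ℂ) : Op := if h : Cyl φ then D z h.choose φ else 0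

lemma DD_eq {m : ℕ} {φ : Finset ℕ → ℂ} (h : Dep m φ) : DD z φ = D z m φ := by
  have h1 : Cyl φ := ⟨m, h⟩
  unfold DD
  rw [dif_pos h1, ← D_stable h1.choose_spec _ (le_max_left _ m), D_stable h _ (le_max_right _ m)]

lemma DD_commute {A : Op} (h : ∀ i, Commute A (z i)) (φ : Finset ℕ → ℂ) :
    Commute A (DD z φ) := by
  unfold DD
  split_ifs
  · exact D_commute h _ _
  · exact Commute.zero_right A

lemma DD_two {φ ψ : Finset ℕ → ℂ} (h : Cyl φ) (h' : Cyl ψ) : ∃ m, Dep m φ ∧ Dep m ψ := by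
  obtain ⟨m, hm⟩ := h
  obtain ⟨n, hn⟩ := h'
  exact ⟨max m n, hm.mono (le_max_left m n), hn.mono (le_max_right m n)⟩

lemma DD_add {φ ψ : Finset ℕ → ℂ} (h : Cyl φ) (h' : Cyl ψ) :
    DD z (fun S => φ S + ψ S) = DD z φ + DD z ψ := by
  obtain ⟨m, h1, h2⟩ := DD_two h h'
  rw [DD_eq h1, DD_eq h2, ← D_add]
  exact DD_eq fun S S' hS => by simp only [h1 S S' hS, h2 S S' hS]

lemma DD_mul (hz : Fam z) {φ ψ : Finset ℕ → ℂ} (h : Cyl φ) (h' : Cyl ψ) :
    DD z φ * DD z ψ = DD z fun S => φ S * ψ S := by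
  obtain ⟨m, h1, h2⟩ := DD_two h h'
  rw [DD_eq h1, DD_eq h2, D_mul hz]
  exact (DD_eq fun S S' hS => by simp only [h1 S S' hS, h2 S S' hS]).symm

lemma DD_smul (c : ℂ) {φ : Finset ℕ → ℂ} (h : Cyl φ) :
    DD z (fun S => c * φ S) = c • DD z φ := by
  obtain ⟨m, h1⟩ := h
  rw [DD_eq h1, ← D_smul]
  exact DD_eq fun S S' hS => by simp only [h1 S S' hS]

lemma DD_const (c : ℂ) : DD z (fun _ => c) = c • 1 := by
  rw [DD_eq (m := 0) fun _ _ _ => rfl]; rfl

lemma DD_one : DD z (fun _ => 1) = 1 := by rw [DD_const, one_smul]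

lemma DD_zero : DD z (fun _ => 0) = 0 := by rw [DD_const, zero_smul]

lemma DD_star (hz : Fam z) {φ : Finset ℕ → ℂ} (h : Cyl φ) :
    star (DD z φ) = DD z fun S => star (φ S) := by
  obtain ⟨m, h1⟩ := h
  rw [DD_eq h1, D_star hz]
  exact (DD_eq fun S S' hS => by simp only [h1 S S' hS]).symm

lemma DD_shift {u : Op} {a : Finset ℕ} (h : ∀ i, u * z i = sg {i} a • (z i * u))
    {φ : Finset ℕ → ℂ} (hφ : Cyl φ) : u * DD z φ = DD z (fun S => φ (S ∆ a)) * u := by
  obtain ⟨m, h1⟩ := hφ
  rw [DD_eq h1, D_shift h, DD_eq (m := m) fun S S' hS => h1 _ _ fun i hi => by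
    simp only [mem_symmDiff, hS i hi]]
  congr 2
  funext S
  exact h1 _ _ fun i hi => by simp only [mem_symmDiff, mem_inter, mem_range, hi, and_true]

lemma DD_sum {ι : Type} (s : Finset ι) {φ : ι → Finset ℕ → ℂ} (h : ∀ i ∈ s, Cyl (φ i)) :
    DD z (fun S => ∑ i ∈ s, φ i S) = ∑ i ∈ s, DD z (φ i) := by
  classical
  induction s using Finset.induction_on with
  | empty => simp [DD_zero]
  | insert i s hi ih =>
    simp only [sum_insert hi]
    rw [DD_add (h i (mem_insert_self _ _)) (Cyl.sum s fun j hj => h j (mem_insert_of_mem hj)),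
      ih fun j hj => h j (mem_insert_of_mem hj)]

lemma DD_z (i : ℕ) : DD z (sg {i}) = z i := by
  rw [DD_eq (m := i + 1) fun S S' hS => by
    simp only [sg_single, hS i (Nat.lt_succ_self i)]]
  simp only [D]
  rw [D_congr i (sg {i}) (fun _ => 1) fun S hS => by
      rw [sg_single, if_neg fun h => lt_irrefl i (mem_range.mp (hS h))],
    D_congr i (fun S => sg {i} (insert i S)) (fun _ => -1) fun S _ => by
      rw [sg_single, if_pos (mem_insert_self _ _)], D_const, D_const]
  simp only [one_smul, mul_one, neg_smul, mul_neg, ← sub_eq_add_neg, e0_sub_e1]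

lemma normsq_eq (A : Op) (v : H) : ‖A v‖ ^ 2 = (inner ℂ v ((star A * A) v)).re := by
  rw [mul_ap, ContinuousLinearMap.star_eq_adjoint, ContinuousLinearMap.adjoint_inner_right,
    inner_self_eq_norm_sq_to_K]
  norm_cast

lemma DD_normsq (hz : Fam z) {φ : Finset ℕ → ℂ} (h : Cyl φ) (v : H) :
    ‖DD z φ v‖ ^ 2 = (inner ℂ v (DD z (fun S => ((‖φ S‖ ^ 2 : ℝ) : ℂ)) v)).re := by
  rw [normsq_eq, DD_star hz h, DD_mul hz (h.map star) h]
  congr 4
  funext S
  rw [Complex.star_def, Complex.conj_mul']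
  norm_cast

lemma DD_pyth (hz : Fam z) {ι : Type} (s : Finset ι) {φ : ι → Finset ℕ → ℂ} {ψ : Finset ℕ → ℂ}
    (h : ∀ i ∈ s, Cyl (φ i)) (h' : Cyl ψ) (he : ∀ S, ∑ i ∈ s, ‖φ i S‖ ^ 2 = ‖ψ S‖ ^ 2) (v : H) :
    ∑ i ∈ s, ‖DD z (φ i) v‖ ^ 2 = ‖DD z ψ v‖ ^ 2 := by
  rw [sum_congr rfl fun i hi => DD_normsq hz (h i hi) v, DD_normsq hz h', ← Complex.re_sum,
    ← inner_sum, ← _root_.sum_apply,
    ← DD_sum s fun i hi => (h i hi).map fun c => ((‖c‖ ^ 2 : ℝ) : ℂ)]
  congr 4
  funext S
  rw [← he S]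
  norm_cast

lemma DD_norm (hz : Fam z) {φ : Finset ℕ → ℂ} (h : Cyl φ) {C : ℝ} (hC : ∀ S, ‖φ S‖ ≤ C)
    (v : H) : ‖DD z φ v‖ ≤ C * ‖v‖ := by
  have hC0 : 0 ≤ C := (norm_nonneg _).trans (hC ∅)
  have := DD_pyth hz (univ : Finset Bool)
    (φ := fun b S => if b then φ S else (Real.sqrt (C ^ 2 - ‖φ S‖ ^ 2) : ℂ)) (ψ := fun _ => C)
    (fun b _ => h.map fun c => if b then c else (Real.sqrt (C ^ 2 - ‖c‖ ^ 2) : ℂ)) (Cyl.const _)
    (fun S => by
      have h1 : 0 ≤ C ^ 2 - ‖φ S‖ ^ 2 := by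
        have := pow_le_pow_left₀ (norm_nonneg _) (hC S) 2
        linarith
      simp [Real.sq_sqrt h1]) v
  rw [DD_const] at this
  simp only [Fintype.univ_bool, mem_singleton, Bool.true_eq_false, not_false_eq_true, sum_insert,
    if_true, sum_singleton, smul_apply, one_apply_eq_self, norm_smul,
    Complex.norm_real, Real.norm_eq_abs, abs_of_nonneg hC0] at this
  refine (pow_le_pow_iff_left₀ (norm_nonneg _) (by positivity) two_ne_zero).mp ?_
  rw [← this]
  exact le_add_of_nonneg_right (sq_nonneg _)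

end

end Vale.Agent.P131
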