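import Vale.Agent.P131.Par

namespace Vale.Agent.P131

open scoped symmDiff
open Finset

noncomputable section

lemma pyth2 {φ1 φ2 ψ : Finset ℕ → ℂ} (h1 : Cyl φ1) (h2 : Cyl φ2) (h : Cyl ψ)
    (he : ∀ S, ‖φ1 S‖ ^ 2 + ‖φ2 S‖ ^ 2 = ‖ψ S‖ ^ 2) (v : H) :
    ‖DL φ1 v‖ ^ 2 + ‖DL φ2 v‖ ^ 2 = ‖DL ψ v‖ ^ 2 := by
  have := DD_pyth famL (univ : Finset Bool) (φ := fun b => if b then φ1 else φ2) (ψ := ψ)
    (fun b _ => by cases b <;> simpa) h (fun S => by simpa using he S) v
  simpa [DL] using this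

lemma shift_norm (a : Finset ℕ) {φ : Finset ℕ → ℂ} (h : Cyl φ) :
    ‖DL (fun S => φ (S ∆ a)) ξ‖ = ‖DL φ ξ‖ := by
  rw [← X_norm a (DL φ ξ), ← mul_ap, X_DL a h, mul_ap, X_ξ, X'_comm (DL_mem _), X'_norm]

def al (m : ℕ) (S : Finset ℕ) : ℂ := ind (∀ j < m, xb j ∈ S)
def no (m : ℕ) (S : Finset ℕ) : ℂ := ind (∀ j < m, xb j ∉ S)
def pt (m : ℕ) (S : Finset ℕ) : ℂ := ind (pat m S)

lemma cyl_al (m : ℕ) : Cyl (al m) := by
  have := (Cyl.inter (xs (range m))).map (al m)
  refine (congrArg Cyl ?_).mp this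
  funext S
  unfold al
  congr 1
  exact propext (forall₂_congr fun j hj => by simp [hj])

lemma cyl_no (m : ℕ) : Cyl (no m) := by
  have := (Cyl.inter (xs (range m))).map (no m)
  refine (congrArg Cyl ?_).mp this
  funext S
  unfold no
  congr 1
  exact propext (forall₂_congr fun j hj => by simp [hj])

lemma cyl_pt (m : ℕ) : Cyl (pt m) := (cyl_pat m).map ind

lemma ind_split {p q r : Prop} (h : r ↔ p ∨ q) (h' : ¬ (p ∧ q)) : ind r = ind p + ind q := by
  by_cases hp : p <;> by_cases hq : q <;> simp_all [ind]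

lemma ind_split' {p q r : Prop} (h : r ↔ p ∨ q) (h' : ¬ (p ∧ q)) :
    ‖ind p‖ ^ 2 + ‖ind q‖ ^ 2 = ‖ind r‖ ^ 2 := by
  by_cases hp : p <;> by_cases hq : q <;> simp_all [ind]

lemma al_succ (m : ℕ) (v : H) :
    ‖DL (al (m + 1)) v‖ ^ 2 + ‖DL (pt m) v‖ ^ 2 = ‖DL (al m) v‖ ^ 2 :=
  pyth2 (cyl_al _) (cyl_pt _) (cyl_al _) (fun S => ind_split' (by
    simp only [Nat.forall_lt_succ_right, pat]; tauto) (by
    simp only [Nat.forall_lt_succ_right, pat]; tauto)) v

lemma pat_gg (m : ℕ) (S : Finset ℕ) :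
    pat m (S ∆ gg m) ↔ (∀ j < m, xb j ∉ S) ∧ xb m ∈ S := by
  simp only [pat, gg, mem_symmDiff, xb_mem, mem_range]
  refine and_congr (forall₂_congr fun j hj => ?_) ?_
  · simp [Nat.lt_succ_of_lt hj]
  · simp

lemma no_succ (m : ℕ) (v : H) :
    ‖DL (no (m + 1)) v‖ ^ 2 + ‖DL (fun S => pt m (S ∆ gg m)) v‖ ^ 2 = ‖DL (no m) v‖ ^ 2 :=
  pyth2 (cyl_no _) ((cyl_pt _).shift _) (cyl_no _) (fun S => ind_split' (by
    simp only [Nat.forall_lt_succ_right, pat_gg]; tauto) (by
    simp only [Nat.forall_lt_succ_right, pat_gg]; tauto)) v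

lemma al_shift (m : ℕ) (S : Finset ℕ) : al (m + 1) (S ∆ {xb m}) = pt m S := by
  unfold al pt
  congr 1
  simp only [Nat.forall_lt_succ_right, pat, mem_symmDiff, mem_singleton, xb_inj]
  refine propext (and_congr (forall₂_congr fun j hj => ?_) ?_)
  · simp [hj.ne]
  · simp

lemma al_add (m : ℕ) (S : Finset ℕ) : al m S = al (m + 1) S + pt m S :=
  ind_split (by simp only [Nat.forall_lt_succ_right, pat]; tauto)
    (by simp only [Nat.forall_lt_succ_right, pat]; tauto)

lemma al_zero : al 0 = fun _ => 1 := funext fun _ => ind_pos (by simp)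

lemma no_zero : no 0 = fun _ => 1 := funext fun _ => ind_pos (by simp)

lemma al_norm (m : ℕ) : ‖DL (al m) ξ‖ ^ 2 = (1 / 2) ^ m := by
  induction m with
  | zero =>
    rw [al_zero, DL, DD_one]
    simp [ξ, dl_norm]
  | succ m ih =>
    have h1 := al_succ m ξ
    have h2 := shift_norm {xb m} (cyl_al (m + 1))
    simp only [al_shift] at h2
    rw [show pt m = fun S => pt m S from rfl, h2, ih] at h1
    rw [pow_succ (1 / 2 : ℝ)]
    linarith

def V (k : ℕ) : Op := X (gg k) * DL (pt k)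

variable {L : ℕ → ℕ} {ε d : ℕ → ℝ} {P : Op}

lemma Par.V_eq (hp : Par L ε d) (k : ℕ) : V k = T L ε * DL fun S => (φ L ε k S)⁻¹ := by
  ext1 v
  rw [mul_ap, hp.T_pat (k := k) ((cyl_φ L ε k).map (·⁻¹)), V, mul_ap]
  · congr 3
    funext S
    by_cases hS : pat k S
    · have := φ_lower L ε hp.pos hS
      have h2 := hp.pos k
      rw [pt, ind_pos hS, mul_inv_cancel₀ (norm_pos_iff.mp (lt_of_lt_of_le (by positivity) this))]
    · rw [pt, φ, ind_neg hS, zero_mul, zero_mul]
  · intro S hS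
    by_contra hh
    exact hS (by rw [φ, ind_neg hh, zero_mul, inv_zero])

lemma Good.commD (hg : Good L ε d) (h : Hyp (T L ε) P) (χ : Finset ℕ → ℂ) :
    Commute (DL χ) P := (DD_commute (fun i => (hg.commZ h i).symm) χ).symm

lemma Good.inv (hg : Good L ε d) (h : Hyp (T L ε) P) {A : Op} (hA : Commute A (T L ε))
    (χ : Finset ℕ → ℂ) : P * (A * DL χ * P) = A * DL χ * P := by
  rw [mul_assoc, (hg.commD h χ).eq, ← mul_assoc A, ← mul_assoc P, h.inv A hA]

lemma star_pt (k : ℕ) : star (DL (pt k)) = DL (pt k) := by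
  rw [DL, DD_star famL (cyl_pt k)]
  exact congrArg _ (funext fun _ => star_ind _)

lemma Good.commV (hg : Good L ε d) (h : Hyp (T L ε) P) (k : ℕ) : Commute (V k) P := by
  have hP := h.mem (T_mem L ε)
  have hV : ∀ k, V k ∈ N := fun k => N.mul_mem (X_mem _) (DL_mem _)
  have e : ∀ k, ‖cm P (V k) ξ‖ ^ 2 =
      ‖DL (fun S => pt k (S ∆ gg k)) (P ξ)‖ ^ 2 - ‖DL (pt k) (P ξ)‖ ^ 2 := by
    intro k
    rw [cm_inv h.pr hP (hV k) (by
      rw [hg.par.V_eq]; exact hg.inv h (Commute.refl _) _)]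
    congr 2
    · rw [V, star_mul, star_pt, X_star, ← X_norm (gg k), ← mul_ap, ← mul_assoc,
        X_DL _ (cyl_pt k), mul_assoc, X_sq, mul_one]
    · rw [V, mul_ap, X_norm]
  have e2 : ∀ m, ∑ k ∈ range m, ‖cm P (V k) ξ‖ ^ 2 =
      ‖DL (al m) (P ξ)‖ ^ 2 - ‖DL (no m) (P ξ)‖ ^ 2 := by
    intro m
    induction m with
    | zero => rw [al_zero, no_zero]; simp
    | succ m ih =>
      rw [sum_range_succ, ih, e]
      linarith [al_succ m (P ξ), no_succ m (P ξ)]
  have key : ∀ m, k < m → ‖cm P (V k) ξ‖ ^ 2 ≤ (1 / 2) ^ m := by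
    intro m hm
    have b1 := single_le_sum (f := fun k => ‖cm P (V k) ξ‖ ^ 2) (fun _ _ => sq_nonneg _)
      (mem_range.mpr hm)
    have b2 : ‖DL (al m) (P ξ)‖ ≤ ‖DL (al m) ξ‖ := by
      rw [← mul_ap, (hg.commD h _).eq, mul_ap]
      exact h.pr.le _
    have b3 := pow_le_pow_left₀ (norm_nonneg _) b2 2
    rw [e2] at b1
    rw [al_norm] at b3
    linarith [sq_nonneg ‖DL (no m) (P ξ)‖]
  have lim := tendsto_pow_atTop_nhds_zero_of_lt_one (r := (1 / 2 : ℝ)) (by norm_num)
    (by norm_num)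
  have := ge_of_tendsto lim ((Filter.eventually_gt_atTop k).mono key)
  exact comm_of_cm hP (hV k)
    (norm_eq_zero.mp (pow_eq_zero_iff two_ne_zero |>.mp (le_antisymm this (sq_nonneg _))))

lemma X_comm {a : Finset ℕ} (h : ∀ i ∈ a, Commute (X {i}) P) : Commute (X a) P := by
  induction a using Finset.induction_on with
  | empty => rw [X_empty]; exact Commute.one_left P
  | insert i a hi ih =>
    have e : insert i a = {i} ∆ a := by
      ext j
      simp only [mem_insert, mem_symmDiff, mem_singleton]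
      by_cases h : j = i
      · subst h; simp [hi]
      · simp [h]
    rw [e, ← X_mul]
    exact (h i (mem_insert_self _ _)).mul_left (ih fun j hj => h j (mem_insert_of_mem hj))

lemma X_DL' (a : Finset ℕ) {φ : Finset ℕ → ℂ} (h : Cyl φ) :
    DL φ * X a = X a * DL fun S => φ (S ∆ a) := by
  rw [X_DL a (h.shift a)]
  simp

lemma Good.commX (hg : Good L ε d) (h : Hyp (T L ε) P) (i : ℕ) : Commute (X {i}) P := by
  rcases bit_cases i with ⟨k, rfl⟩ | ⟨k, i, rfl⟩
  · induction k using Nat.strong_induction_on with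
    | _ k ih =>
      have h1 : Commute (X {xb k} * DL (pt k)) P := by
        have := (X_comm (a := xs (range k)) fun i hi => by
          obtain ⟨j, hj, rfl⟩ := mem_image.mp hi
          exact ih j (mem_range.mp hj)).mul_left (hg.commV h k)
        rwa [V, ← mul_assoc, X_mul, gg, ← xs_sd, show range k ∆ range (k + 1) = {k} by
          ext j; simp only [mem_symmDiff, mem_range, mem_singleton]; omega, xs,
          image_singleton] at this
      have h2 : Commute (X {xb k} * DL (al (k + 1))) P := by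
        have := h1.star_star
        rw [h.pr.st, star_mul, star_pt, X_star, X_DL' _ (cyl_pt k)] at this
        simpa only [← al_shift, symmDiff_assoc, sd_self, sd_empty] using this
      have h3 : ∀ j, Commute (X {xb k} * DL (al (j + 1))) P → Commute (X {xb k} * DL (pt j)) P →
          Commute (X {xb k} * DL (al j)) P := by
        intro j a1 a2
        rw [show al j = fun S => al (j + 1) S + pt j S from funext (al_add j), DL,
          DD_add (cyl_al _) (cyl_pt _), mul_add]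
        exact a1.add_left a2
      have h4 : ∀ j, j ≤ k → Commute (X {xb k} * DL (al j)) P := by
        intro j hj
        induction hj using Nat.decreasingInduction with
        | self => exact h3 k h2 h1
        | of_succ j hj ih' =>
          refine h3 j ih' ?_
          have := ((ih j hj).mul_left ih').mul_left (ih j hj)
          rw [mul_assoc, mul_assoc, X_DL' _ (cyl_al _), ← mul_assoc, ← mul_assoc, X_mul, X_mul,
            symmDiff_right_comm, sd_self, empty_sd] at this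
          simpa only [al_shift] using this
      have := h4 0 (Nat.zero_le k)
      rwa [al_zero, DL, DD_one, mul_one] at this
  · refine h.pr.comm (X_star _) ?_
    have e : X {sb k i} = Y L k i * DL fun S => (ψ L k i S)⁻¹ := by
      rw [Y, mul_assoc, DL_mul (cyl_ψ L k i) ((cyl_ψ L k i).map (·⁻¹))]
      simp only [mul_inv_cancel₀ (ψ_ne L k i _)]
      rw [DL, DD_one, mul_one]
    rw [e]
    exact hg.inv h (T_Y L ε k i) _

lemma Good.scalar (hg : Good L ε d) (h : Hyp (T L ε) P) : ∃ c : ℂ, P = c • 1 := by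
  have hP := h.mem (T_mem L ε)
  refine ⟨P ξ (∅, ∅), sub_eq_zero.mp (faithful (N.sub_mem hP (N.smul_mem N.one_mem _)) ?_)⟩
  rw [sub_apply, sub_eq_zero]
  ext x
  simp only [smul_apply, one_apply_eq_self, lp.coeFn_smul, Pi.smul_apply, smul_eq_mul]
  by_cases hx : x = (∅, ∅)
  · subst hx
    rw [show ξ (∅, ∅) = 1 by simp [ξ, dl_apply], mul_one]
  rw [show ξ x = 0 by simp [ξ, dl_apply, hx], mul_zero]
  by_cases h1 : x.1 = ∅
  · have h2 : x.2 ≠ ∅ := fun h2 => hx (Prod.ext h1 h2)
    obtain ⟨i, hi⟩ := nonempty_iff_ne_empty.mpr h2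
    have e := cm_X hP {i}
    rw [cm, (hg.commX h i).eq, sub_self, zero_apply, eq_comm, sub_eq_zero] at e
    have := congrArg (fun v : H => v (x.1 ∆ {i}, x.2)) e
    simp only [X, X', W_apply, sg_single, hi] at this
    simp only [sg_empty_left, symmDiff_assoc, sd_self, sd_empty, if_true, Prod.mk.eta] at this
    linear_combination (1 / 2 : ℂ) * this
  · obtain ⟨i, hi⟩ := nonempty_iff_ne_empty.mpr h1
    have e := cm_Z hP {i}
    rw [cm, (hg.commZ h i).eq, sub_self, zero_apply, eq_comm, sub_eq_zero] at e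
    have := congrArg (fun v : H => v (x.1, x.2 ∆ {i})) e
    simp only [Z, Z', W_apply, sg_single, hi] at this
    simp only [sg_empty_left, symmDiff_assoc, sd_self, sd_empty, if_true, Prod.mk.eta] at this
    linear_combination (-1 / 2 : ℂ) * this

lemma Par.nonscalar (hp : Par L ε d) (c : ℂ) : T L ε ≠ c • 1 := by
  intro hc
  have h1 := hp.V_eq 0
  have h2 : DL (al 1) * V 0 = V 0 := by
    rw [V, ← mul_assoc, gg, range_one, xs, image_singleton, X_DL' _ (cyl_al 1), mul_assoc,
      DL_mul ((cyl_al 1).shift _) (cyl_pt 0)]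
    congr 2
    funext S
    rw [al_shift, pt]
    unfold ind
    split_ifs <;> simp
  have h3 : DL (al 1) * V 0 = 0 := by
    rw [h1, hc, smul_mul_assoc, one_mul, mul_smul_comm,
      DL_mul (cyl_al 1) ((cyl_φ L ε 0).map (·⁻¹))]
    have : (fun S => al 1 S * (φ L ε 0 S)⁻¹) = fun _ => 0 := funext fun S => by
      by_cases hS : xb 0 ∈ S
      · rw [φ, ind_neg (p := pat 0 S) fun hh => hh.2 hS]; simp
      · rw [al, ind_neg fun hh => hS (hh 0 one_pos), zero_mul]
    rw [this, DL, DD_zero, smul_zero]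
  have h4 := shift_norm {xb 0} (cyl_al 1)
  simp only [al_shift] at h4
  have h5 := al_norm 1
  rw [← h4, ← X_norm (gg 0), ← mul_ap, show (fun S => pt 0 S) = pt 0 from rfl, ← V, ← h2,
    h3] at h5
  norm_num at h5

theorem main : ∃ T : Op, (∀ c : ℂ, T ≠ c • 1) ∧ ∀ M : Submodule ℂ H, IsClosed (M : Set H) →
    (∀ A : Op, A * T = T * A → ∀ x ∈ M, A x ∈ M) → M = ⊥ ∨ M = ⊤ := by
  obtain ⟨L, ε, d, hg⟩ := exists_good
  refine ⟨T L ε, hg.par.nonscalar, fun M hM hA => ?_⟩
  have := hM.completeSpace_coe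
  obtain ⟨c, hc⟩ := hg.scalar (P := M.starProjection)
    ⟨⟨isSelfAdjoint_starProjection M, M.isIdempotentElem_starProjection⟩, fun A h => by
      ext1 v
      exact Submodule.starProjection_eq_self_iff.mpr (hA A h _ (M.starProjection_apply_mem v))⟩
  by_cases h0 : c = 0
  · refine Or.inl (eq_bot_iff.mpr fun v hv => ?_)
    rw [← Submodule.starProjection_eq_self_iff.mpr hv, hc, h0]
    simp
  · refine Or.inr (eq_top_iff.mpr fun v _ => ?_)
    have := M.smul_mem c⁻¹ (M.starProjection_apply_mem v)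
    rwa [hc, smul_apply, smul_smul, inv_mul_cancel₀ h0, one_smul] at this

end

end Vale.Agent.P131
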