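import Vale.Agent.P131.Pos

namespace Vale.Agent.P131

open scoped symmDiff
open Finset

noncomputable section

def FP (N : ℕ) (μ η δ : ℝ) : Prop :=
  ∀ (P T : Op) (ζ : ℕ → H) (w : ℕ → ℂ) (ρ : ℝ) (err : ℕ → ℝ), Proj P →
      (∀ v, P (T (P v)) = T (P v)) → (∀ v, ‖T v‖ ≤ ‖v‖) → (∀ i < N, ‖ζ i‖ = ρ) →
      (∀ i < N, ∀ j < N, i ≠ j → inner ℂ (ζ i) (ζ j) = 0) →
      (∀ r, r + 1 < N → T (ζ r) = w r • ζ (r + 1) ∧ μ ≤ ‖w r‖) →
      (∀ r, r + 1 = N → ‖T (ζ r)‖ ≤ δ * ρ) →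
      (∀ r < N, ∃ c : ℕ → ℂ, ‖P (ζ r) - ∑ i ∈ range N, c i • ζ i‖ ≤ err r) →
      ∀ r < N, ∃ q : ℂ, ‖P (ζ r) - q • ζ r‖ ^ 2 ≤
        η ^ 2 * ρ ^ 2 + (∑ i ∈ range N, err i ^ 2) / δ ^ 2

lemma xs_sub {a : Finset ℕ} {l : ℕ} (h : a ⊆ range l) : xs a ⊆ xs (range l) :=
  image_subset_image h

lemma sd_sub {a b c : Finset ℕ} (h : a ⊆ c) (h' : b ⊆ c) : a ∆ b ⊆ c :=
  symmDiff_subset_union.trans (union_subset h h')

variable {L : ℕ → ℕ} {ε d : ℕ → ℝ} {P : Op}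

lemma point_est (hp : Par L ε d) (h : Hyp (T L ε) P) {l m : ℕ} {μ η δ : ℝ}
    (hF : FP (2 ^ l) μ η δ) (hd : d l ≤ δ) (hμ : ∀ k < l, μ ≤ ε k * (1 / 2) ^ M L (k + 1))
    (hm : xs (range l) ⊆ range m) (hφ : ∀ k < l, Dep m (φ L ε k)) {s : Finset Λ}
    (hs : ∀ x ∈ s, x.1 ⊆ xs (range l) ∧ x.2 ⊆ range m) (c : Λ → ℂ) (ω : Finset ℕ) :
    ∃ q : ℂ, ‖P (DL (E m ω) ξ) - q • DL (E m ω) ξ‖ ^ 2 ≤ η ^ 2 * ‖DL (E m ω) ξ‖ ^ 2 +
      (∑ a ∈ (range l).powerset,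
        ‖DR (E m (ω ∆ xs a)) (P ξ - ∑ x ∈ s, c x • dl x)‖ ^ 2) / δ ^ 2 := by
  have hP := h.mem (T_mem L ε)
  set a0 := (range l).filter (xb · ∈ ω) with ha0
  have a0s : a0 ⊆ range l := filter_subset _ _
  let b : ℕ → Finset ℕ := fun r => xs (pos r ∆ a0)
  let ζ : ℕ → H := fun r => X (b r) (DL (E m ω) ξ)
  have bs : ∀ r < 2 ^ l, b r ⊆ range m := fun r hr =>
    (xs_sub (sd_sub (pos_sub hr) a0s)).trans hm
  have bm : ∀ r, ∀ i < l, (xb i ∈ ω ∆ b r ↔ i ∈ pos r) := by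
    intro r i hi
    simp only [b, ha0, mem_symmDiff, xb_mem, mem_filter, mem_range, hi, true_and]
    tauto
  have xm : ∀ i < l, xb i < m := fun i hi => mem_range.mp (hm (xb_mem.mpr (mem_range.mpr hi)))
  have z1 : ∀ r < 2 ^ l, ζ r = DL (E m (ω ∆ b r)) (X (b r) ξ) := fun r hr => by
    simp only [ζ]
    rw [← mul_ap, X_DL _ (cyl_E _ _), E_shift (bs r hr), mul_ap]
  have z2 : ∀ r < 2 ^ l, ∀ A ∈ N, X' (b r) (DR (E m (ω ∆ b r)) (A ξ)) = A (ζ r) :=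
    fun r hr A hA => by
      rw [z1 r hr, X_ξ, X'_comm (DL_mem _), DL_ξ, X'_comm hA, DR_comm hA]
  have hw : ∀ r, ∃ w : ℂ, r + 1 < 2 ^ l → T L ε (ζ r) = w • ζ (r + 1) ∧ μ ≤ ‖w‖ := by
    intro r
    by_cases hr : r + 1 < 2 ^ l
    swap
    · exact ⟨0, fun h => absurd h hr⟩
    obtain ⟨k, hk, k1, k2, k3⟩ := pos_succ hr
    have pt : pat k (ω ∆ b r) :=
      ⟨fun j hj => (bm r j (by omega)).mpr (k1 j hj), fun hh => k2 ((bm r k hk).mp hh)⟩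
    refine ⟨φ L ε k (ω ∆ b r), fun _ => ⟨?_, (hμ k hk).trans (φ_lower L ε hp.pos pt)⟩⟩
    rw [z1 r (by omega), hp.T_pat (k := k) (cyl_E _ _), E_dep (hφ k hk), DL,
      DD_smul _ (cyl_E _ _), smul_apply, map_smul, ← DL, ← z1 r (by omega)]
    · congr 1
      simp only [ζ, b]
      rw [← mul_ap, X_mul, k3, gg, ← xs_sd, symmDiff_comm (pos r) (range (k + 1)), symmDiff_assoc]
    · intro S hS
      exact ⟨fun j hj => (E_mem hS (xm j (by omega))).mpr (pt.1 j hj),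
        fun hh => pt.2 ((E_mem hS (xm k hk)).mp hh)⟩
  choose w hw using hw
  obtain ⟨r0, hr0, er0⟩ := pos_surj a0s
  obtain ⟨q, hq⟩ := hF P (T L ε) ζ w ‖DL (E m ω) ξ‖
    (fun r => ‖DR (E m (ω ∆ b r)) (P ξ - ∑ x ∈ s, c x • dl x)‖) h.pr
    (fun v => by rw [← mul_ap (T L ε), ← mul_ap P, h.inv _ (Commute.refl _)]) hp.T_le
    (fun i _ => X_norm _ _)
    (fun i hi j hj hij => by
      rw [z1 i hi, z1 j hj]
      refine E_orth (fun hh => hij (pos_inj ?_)) _ _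
      ext k
      by_cases hk : k < l
      · rw [← bm i k hk, ← bm j k hk, hh]
      · exact ⟨fun h1 => absurd (mem_range.mp (pos_sub hi h1)) hk,
          fun h1 => absurd (mem_range.mp (pos_sub hj h1)) hk⟩) hw
    (fun r hr => by
      refine (hp.T_tail l (ζ r) fun k hk => ?_).trans ?_
      · rw [z1 r (by omega)]
        refine Tk_zero (cyl_E _ _) (fun S hS hh => hh.2 ?_) _
        rw [E_mem hS (xm k hk), bm r k hk, pos_last hr]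
        exact mem_range.mpr hk
      · simp only [ζ, X_norm]
        exact mul_le_mul_of_nonneg_right hd (norm_nonneg _))
    (fun r hr => by
      have hsp : X' (b r) (DR (E m (ω ∆ b r)) (∑ x ∈ s, c x • dl x)) ∈
          Submodule.span ℂ (ζ '' (range (2 ^ l) : Finset ℕ)) := by
        rw [map_sum, map_sum]
        refine Submodule.sum_mem _ fun x hx => ?_
        rw [map_smul, map_smul, show x = (x.1, x.2) from rfl, dl_left, ← mul_ap (X _),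
          z2 r hr _ (N.mul_mem (X_mem _) (Z_mem _)), mul_ap, z1 r hr, Z_E (hs x hx).2, ← z1 r hr,
          map_smul]
        refine Submodule.smul_mem _ _ (Submodule.smul_mem _ _ (Submodule.subset_span ?_))
        obtain ⟨a, ha, ea⟩ := subset_image_iff.mp (hs x hx).1
        obtain ⟨r', hr', er'⟩ := pos_surj (sd_sub ha (pos_sub hr))
        refine ⟨r', by simpa using hr', ?_⟩
        simp only [ζ, b]
        rw [← mul_ap (X x.1), X_mul, er', ← ea, ← xs, ← xs_sd, symmDiff_assoc]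
      obtain ⟨c', hc'⟩ := (Submodule.mem_span_image_finset_iff_exists_fun' ℂ).mp hsp
      refine ⟨c', le_of_eq ?_⟩
      rw [hc', ← z2 r hr P hP, ← map_sub, ← map_sub, X'_norm]) r0 hr0
  have zr : ζ r0 = DL (E m ω) ξ := by
    simp only [ζ, b]
    rw [er0, sd_self, xs, image_empty, X_empty]
    rfl
  refine ⟨q, ?_⟩
  rw [zr] at hq
  refine hq.trans (add_le_add le_rfl (div_le_div_of_nonneg_right ?_ (sq_nonneg _)))
  rw [← sum_image (s := range (2 ^ l)) (g := fun r => pos r ∆ a0)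
    (f := fun a => ‖DR (E m (ω ∆ xs a)) (P ξ - ∑ x ∈ s, c x • dl x)‖ ^ 2)
    fun r _ r' _ hh => pos_inj (symmDiff_left_injective a0 hh)]
  refine sum_le_sum_of_subset_of_nonneg (fun a ha => ?_) fun _ _ _ => sq_nonneg _
  obtain ⟨r, hr, rfl⟩ := mem_image.mp ha
  exact mem_powerset.mpr (sd_sub (pos_sub (mem_range.mp hr)) a0s)

lemma dep_all (l : ℕ) : ∃ m, ∀ k < l, Dep m (φ L ε k) := by
  induction l with
  | zero => exact ⟨0, fun _ h => absurd h (Nat.not_lt_zero _)⟩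
  | succ l ih =>
    obtain ⟨m, hm⟩ := ih
    obtain ⟨n, hn⟩ := cyl_φ L ε l
    refine ⟨max m n, fun k hk => ?_⟩
    rcases (Nat.lt_succ_iff.mp hk).eq_or_lt with rfl | hk
    · exact hn.mono (le_max_right _ _)
    · exact (hm k hk).mono (le_max_left _ _)

lemma E_sumR {m : ℕ} {b : Finset ℕ} (hb : b ⊆ range m) (v : H) :
    ∑ ω ∈ (range m).powerset, ‖DR (E m (ω ∆ b)) v‖ ^ 2 = ‖v‖ ^ 2 := E_sum famR hb v

lemma E_sumL {m : ℕ} {b : Finset ℕ} (hb : b ⊆ range m) (v : H) :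
    ∑ ω ∈ (range m).powerset, ‖DL (E m (ω ∆ b)) v‖ ^ 2 = ‖v‖ ^ 2 := E_sum famL hb v

lemma cm_point (hP : P ∈ N) {m j : ℕ} (hj : {j} ⊆ range m) (ω : Finset ℕ) (q : ℂ) :
    ‖DR (E m ω) (cm P (Z {j}) ξ)‖ ^ 2 ≤ 4 * ‖P (DL (E m ω) ξ) - q • DL (E m ω) ξ‖ ^ 2 := by
  rw [← DR_comm (cm_mem hP (Z_mem _)), ← DL_ξ]
  have e : cm P (Z {j}) (DL (E m ω) ξ) = Z {j} (P (DL (E m ω) ξ) - q • DL (E m ω) ξ) -
      sg {j} ω • (P (DL (E m ω) ξ) - q • DL (E m ω) ξ) := by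
    rw [cm, sub_apply, mul_ap, mul_ap, map_sub, map_smul, Z_E hj, map_smul]
    module
  have b := norm_sub_le (Z {j} (P (DL (E m ω) ξ) - q • DL (E m ω) ξ))
    (sg {j} ω • (P (DL (E m ω) ξ) - q • DL (E m ω) ξ))
  rw [← e, Z_norm, norm_smul, norm_sg] at b
  have := pow_le_pow_left₀ (norm_nonneg _) b 2
  linarith

lemma main_est (hp : Par L ε d) (h : Hyp (T L ε) P) {l : ℕ} {μ η δ : ℝ}
    (hF : FP (2 ^ l) μ η δ) (hd : d l ≤ δ) (hμ : ∀ k < l, μ ≤ ε k * (1 / 2) ^ M L (k + 1))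
    {s : Finset Λ} (hs : ∀ x ∈ s, x.1 ⊆ xs (range l)) (c : Λ → ℂ) (j : ℕ) :
    ‖cm P (Z {j}) ξ‖ ^ 2 ≤
      4 * (η ^ 2 + 2 ^ l * ‖P ξ - ∑ x ∈ s, c x • dl x‖ ^ 2 / δ ^ 2) := by
  have hP := h.mem (T_mem L ε)
  obtain ⟨m1, hm1⟩ := dep_all (L := L) (ε := ε) l
  obtain ⟨m2, hm2⟩ := (insert j (xs (range l) ∪ s.biUnion (·.2))).exists_nat_subset_range
  have hm3 := hm2.trans (range_mono (le_max_right m1 m2))
  generalize hm : max m1 m2 = m at hm3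
  have hφ : ∀ k < l, Dep m (φ L ε k) := fun k hk => (hm1 k hk).mono (hm ▸ le_max_left _ _)
  have hF' : xs (range l) ⊆ range m :=
    (subset_union_left.trans (subset_insert _ _)).trans hm3
  have hj : {j} ⊆ range m := singleton_subset_iff.mpr (hm3 (mem_insert_self _ _))
  have hs' : ∀ x ∈ s, x.1 ⊆ xs (range l) ∧ x.2 ⊆ range m := fun x hx =>
    ⟨hs x hx, fun i hi => hm3 (mem_insert_of_mem (mem_union_right _
      (mem_biUnion.mpr ⟨x, hx, hi⟩)))⟩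
  have key := point_est hp h hF hd hμ hF' hφ hs' c
  have s1 : ∑ ω ∈ (range m).powerset, ‖DR (E m ω) (cm P (Z {j}) ξ)‖ ^ 2 =
      ‖cm P (Z {j}) ξ‖ ^ 2 := by
    simpa only [sd_empty] using E_sumR (empty_subset (range m)) (cm P (Z {j}) ξ)
  have s2 : ∑ ω ∈ (range m).powerset, ‖DL (E m ω) ξ‖ ^ 2 = 1 := by
    have := E_sumL (empty_subset (range m)) ξ
    rw [show ‖ξ‖ = 1 from dl_norm _, one_pow] at this
    simpa only [sd_empty] using this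
  generalize P ξ - ∑ x ∈ s, c x • dl x = v at key ⊢
  have s3 : ∑ ω ∈ (range m).powerset, ∑ a ∈ (range l).powerset,
      ‖DR (E m (ω ∆ xs a)) v‖ ^ 2 = 2 ^ l * ‖v‖ ^ 2 := by
    have : ∀ a ∈ (range l).powerset, ∑ ω ∈ (range m).powerset, ‖DR (E m (ω ∆ xs a)) v‖ ^ 2 =
        ‖v‖ ^ 2 := fun a ha => E_sumR ((xs_sub (mem_powerset.mp ha)).trans hF') v
    rw [sum_comm, sum_congr rfl this]
    simp
  have s4 : ∀ ω ∈ (range m).powerset, ‖DR (E m ω) (cm P (Z {j}) ξ)‖ ^ 2 ≤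
      4 * (η ^ 2 * ‖DL (E m ω) ξ‖ ^ 2 +
        (∑ a ∈ (range l).powerset, ‖DR (E m (ω ∆ xs a)) v‖ ^ 2) / δ ^ 2) := by
    intro ω _
    obtain ⟨q, hq⟩ := key ω
    exact (cm_point hP hj ω q).trans (mul_le_mul_of_nonneg_left hq (by norm_num))
  have s5 := sum_le_sum s4
  rwa [s1, ← mul_sum, sum_add_distrib, ← mul_sum, s2, ← sum_div, s3, mul_one] at s5

end

end Vale.Agent.P131
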