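import Vale.Agent.P131.Calc

namespace Vale.Agent.P131

open Finset

noncomputable section

structure Proj (P : Op) : Prop where
  st : star P = P
  id : P * P = P

lemma Proj.inner_left {P : Op} (h : Proj P) (u v : H) : inner ℂ (P u) v = inner ℂ u (P v) := by
  rw [← ContinuousLinearMap.adjoint_inner_right, ← ContinuousLinearMap.star_eq_adjoint, h.st]

lemma Proj.ap {P : Op} (h : Proj P) (v : H) : P (P v) = P v := by rw [← mul_ap, h.id]

lemma Proj.pyth {P : Op} (h : Proj P) (v : H) : ‖P v‖ ^ 2 + ‖v - P v‖ ^ 2 = ‖v‖ ^ 2 := by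
  have h1 : inner ℂ (P v) (v - P v) = 0 := by
    rw [h.inner_left, map_sub, h.ap, sub_self, inner_zero_right]
  have h2 := norm_add_sq_eq_norm_sq_add_norm_sq_of_inner_eq_zero _ _ h1
  rw [add_sub_cancel] at h2
  linarith

lemma Proj.le {P : Op} (h : Proj P) (v : H) : ‖P v‖ ≤ ‖v‖ := by
  refine (pow_le_pow_iff_left₀ (norm_nonneg _) (norm_nonneg _) two_ne_zero).mp ?_
  linarith [h.pyth v, sq_nonneg ‖v - P v‖]

lemma Proj.compl_le {P : Op} (h : Proj P) (v : H) : ‖v - P v‖ ≤ ‖v‖ := by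
  refine (pow_le_pow_iff_left₀ (norm_nonneg _) (norm_nonneg _) two_ne_zero).mp ?_
  linarith [h.pyth v, sq_nonneg ‖P v‖]

structure Chain (P T : Op) (N : ℕ) (μ δ : ℝ) (ζ : ℕ → H) (w : ℕ → ℂ) : Prop where
  pr : Proj P
  inv : ∀ v, P (T (P v)) = T (P v)
  nT : ∀ v, ‖T v‖ ≤ ‖v‖
  n1 : ∀ i < N, ‖ζ i‖ = 1
  orth : ∀ i < N, ∀ j < N, i ≠ j → inner ℂ (ζ i) (ζ j) = 0
  step : ∀ r, r + 1 < N → T (ζ r) = w r • ζ (r + 1) ∧ μ ≤ ‖w r‖
  last : ∀ r, r + 1 = N → ‖T (ζ r)‖ ≤ δ
  apx : ∀ r < N, ∃ c : ℕ → ℂ, ‖P (ζ r) - ∑ i ∈ range N, c i • ζ i‖ ≤ δ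

lemma Chain.mono {P T : Op} {N : ℕ} {μ δ δ' : ℝ} {ζ : ℕ → H} {w : ℕ → ℂ}
    (h : Chain P T N μ δ ζ w) (hδ : δ ≤ δ') : Chain P T N μ δ' ζ w :=
  ⟨h.pr, h.inv, h.nT, h.n1, h.orth, h.step, fun r hr => (h.last r hr).trans hδ,
    fun r hr => (h.apx r hr).imp fun _ hc => hc.trans hδ⟩

lemma cyc {μ : ℝ} (hμ : 0 < μ) (n : ℕ) : ∀ θ η : ℝ, 0 < θ → 0 < η → ∃ δ : ℝ, 0 < δ ∧
    ∀ (P T : Op) (N : ℕ) (ζ : ℕ → H) (w : ℕ → ℂ), Chain P T N μ δ ζ w → ∀ r, r + n = N →
      ∀ (v : H) (c : ℕ → ℂ), P v = v → ‖v - ∑ i ∈ range n, c i • ζ (r + i)‖ ≤ δ →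
        (0 < n → θ ≤ ‖c 0‖) → (∀ i < n, ‖c i‖ ≤ 2) →
          ∀ a, r ≤ a → a < N → ‖ζ a - P (ζ a)‖ ≤ η := by
  induction n with
  | zero =>
    intro θ η _ _
    exact ⟨1, one_pos, fun P T N ζ w _ r hr v c _ _ _ _ a h1 h2 => by omega⟩
  | succ n ih =>
    intro θ η hθ hη
    obtain ⟨η', h1, h2, h3⟩ : ∃ η' : ℝ, 0 < η' ∧ η' ≤ η ∧ n * (2 * η') ≤ θ * η / 2 := by
      refine ⟨min η (θ * η / (4 * (n + 1))), by positivity, min_le_left _ _, ?_⟩
      have := min_le_right η (θ * η / (4 * (n + 1)))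
      rw [le_div_iff₀ (by positivity)] at this
      have h0 : 0 ≤ min η (θ * η / (4 * (n + 1))) := by positivity
      nlinarith
    obtain ⟨δ1, hδ1, H1⟩ := ih (θ * μ) η' (by positivity) h1
    refine ⟨min (δ1 / 3) (θ * η / 2), by positivity, ?_⟩
    intro P T N ζ w hc r hr v c hv hd hθc hcb
    have m1 := min_le_left (δ1 / 3) (θ * η / 2)
    have m2 := min_le_right (δ1 / 3) (θ * η / 2)
    have hw : ∀ i, i + 1 < N → ‖w i‖ ≤ 1 := by
      intro i hi
      have := hc.nT (ζ i)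
      rwa [(hc.step i hi).1, norm_smul, hc.n1 _ hi, hc.n1 i (by omega), mul_one] at this
    have key : ∀ a, r + 1 ≤ a → a < N → ‖ζ a - P (ζ a)‖ ≤ η' := by
      refine H1 P T N ζ w (hc.mono (by linarith)) (r + 1) (by omega) (T v)
        (fun i => c i * w (r + i)) (by rw [← hv, hc.inv]) ?_ ?_ ?_
      · have e : T v - ∑ i ∈ range n, (c i * w (r + i)) • ζ (r + 1 + i) =
            T (v - ∑ i ∈ range (n + 1), c i • ζ (r + i)) + c n • T (ζ (r + n)) := by
          rw [sum_range_succ, map_sub, map_add, map_sum, map_smul,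
            sum_congr rfl (g := fun i => T (c i • ζ (r + i))) fun i hi => by
              rw [map_smul, (hc.step (r + i) (by have := mem_range.mp hi; omega)).1, smul_smul,
                Nat.add_right_comm]]
          abel
        rw [e]
        refine (norm_add_le _ _).trans ?_
        have a1 := (hc.nT _).trans hd
        have a2 := hc.last (r + n) (by omega)
        have a3 := hcb n (by omega)
        rw [norm_smul]
        nlinarith [norm_nonneg (T (ζ (r + n)))]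
      · intro hn
        rw [norm_mul]
        exact mul_le_mul (hθc (by omega)) (hc.step r (by omega)).2 hμ.le (norm_nonneg _)
      · intro i hi
        rw [norm_mul]
        have := mul_le_mul (hcb i (by omega)) (hw (r + i) (by omega)) (norm_nonneg _) (by norm_num)
        linarith
    intro a ha haN
    rcases ha.eq_or_lt with rfl | ha
    · have e : c 0 • (ζ r - P (ζ r)) = -((v - ∑ i ∈ range (n + 1), c i • ζ (r + i)) -
          P (v - ∑ i ∈ range (n + 1), c i • ζ (r + i))) -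
          ∑ i ∈ range n, c (i + 1) • (ζ (r + (i + 1)) - P (ζ (r + (i + 1)))) := by
        rw [sum_range_succ', map_sub, map_add, map_sum, hv]
        simp only [map_smul, smul_sub, sum_sub_distrib, add_zero]
        abel
      have b1 := (hc.pr.compl_le _).trans hd
      have b2 : ‖∑ i ∈ range n, c (i + 1) • (ζ (r + (i + 1)) - P (ζ (r + (i + 1))))‖ ≤
          n * (2 * η') := by
        refine (norm_sum_le _ _).trans ?_
        have := sum_le_card_nsmul (range n)
          (fun i => ‖c (i + 1) • (ζ (r + (i + 1)) - P (ζ (r + (i + 1))))‖) (2 * η') fun i hi => by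
            have := mem_range.mp hi
            rw [norm_smul]
            exact mul_le_mul (hcb _ (by omega)) (key _ (by omega) (by omega)) (norm_nonneg _)
              (by norm_num)
        rwa [card_range, nsmul_eq_mul] at this
      have b3 := norm_sub_le (-((v - ∑ i ∈ range (n + 1), c i • ζ (r + i)) -
          P (v - ∑ i ∈ range (n + 1), c i • ζ (r + i))))
          (∑ i ∈ range n, c (i + 1) • (ζ (r + (i + 1)) - P (ζ (r + (i + 1)))))
      rw [← e, norm_neg, norm_smul] at b3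
      have b4 := hθc (by omega)
      have b5 : θ * ‖ζ r - P (ζ r)‖ ≤ θ * η := by
        have := mul_le_mul_of_nonneg_right b4 (norm_nonneg (ζ r - P (ζ r)))
        linarith
      exact le_of_mul_le_mul_left b5 hθ
    · exact (key a ha haN).trans h2

lemma Chain.coef {P T : Op} {N : ℕ} {μ δ : ℝ} {ζ : ℕ → H} {w : ℕ → ℂ}
    (h : Chain P T N μ δ ζ w) {v : H} {c : ℕ → ℂ} (hc : ‖v - ∑ i ∈ range N, c i • ζ i‖ ≤ δ)
    {j : ℕ} (hj : j < N) : ‖inner ℂ (ζ j) v - c j‖ ≤ δ := by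
  have e : inner ℂ (ζ j) (∑ i ∈ range N, c i • ζ i) = c j := by
    rw [inner_sum, sum_eq_single j]
    · rw [inner_smul_right, inner_self_eq_norm_sq_to_K, h.n1 j hj]; simp
    · intro i hi hij
      rw [inner_smul_right, h.orth j hj i (mem_range.mp hi) hij.symm, mul_zero]
    · intro hj'
      exact absurd (mem_range.mpr hj) hj'
  rw [← e, ← inner_sub_right]
  refine (norm_inner_le_norm _ _).trans ?_
  rw [h.n1 j hj, one_mul]
  exact hc

lemma diag {μ : ℝ} (hμ : 0 < μ) (N r : ℕ) : ∀ η : ℝ, 0 < η → ∃ δ : ℝ, 0 < δ ∧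
    ∀ (P T : Op) (ζ : ℕ → H) (w : ℕ → ℂ), Chain P T N μ δ ζ w →
      ∀ i < r, i < N → ∃ q : ℂ, ‖P (ζ i) - q • ζ i‖ ≤ η := by
  induction r with
  | zero => intro η _; exact ⟨1, one_pos, fun _ _ _ _ _ i hi => by omega⟩
  | succ r ih =>
    intro η hη
    obtain ⟨δ1, hδ1, H1⟩ := cyc hμ (N - r) (η ^ 2 / 2) η (by positivity) hη
    obtain ⟨η', h1, h2, h3⟩ : ∃ η' : ℝ, 0 < η' ∧ η' ≤ η ∧ r * (2 * η') + η' ≤ δ1 := by
      refine ⟨min η (δ1 / (2 * r + 1)), by positivity, min_le_left _ _, ?_⟩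
      have := min_le_right η (δ1 / (2 * r + 1))
      rw [le_div_iff₀ (by positivity)] at this
      linarith
    obtain ⟨δ2, hδ2, H2⟩ := ih η' h1
    refine ⟨min (min δ2 η') (min 1 (η ^ 2 / 2)), by positivity, ?_⟩
    intro P T ζ w hc i hi hiN
    have m1 : min (min δ2 η') (min 1 (η ^ 2 / 2)) ≤ δ2 := (min_le_left _ _).trans (min_le_left _ _)
    have m2 : min (min δ2 η') (min 1 (η ^ 2 / 2)) ≤ η' := (min_le_left _ _).trans (min_le_right _ _)
    have m3 : min (min δ2 η') (min 1 (η ^ 2 / 2)) ≤ 1 := (min_le_right _ _).trans (min_le_left _ _)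
    have m4 : min (min δ2 η') (min 1 (η ^ 2 / 2)) ≤ η ^ 2 / 2 :=
      (min_le_right _ _).trans (min_le_right _ _)
    have H3 := H2 P T ζ w (hc.mono m1)
    rcases (Nat.lt_succ_iff.mp hi).eq_or_lt with rfl | hi
    · obtain ⟨c, hcc⟩ := hc.apx i hiN
      have hco := fun j (hj : j < N) => hc.coef hcc hj
      by_cases hθ : η ^ 2 / 2 ≤ ‖c i‖
      · refine ⟨1, ?_⟩
        rw [one_smul, norm_sub_rev]
        have hr0 : (0 : ℝ) ≤ i * (2 * η') := by positivity
        refine H1 P T N ζ w (hc.mono (by linarith)) i (by omega) (P (ζ i)) (fun j => c (i + j))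
          (hc.pr.ap _) ?_ (fun _ => hθ) ?_ i le_rfl hiN
        · have e : P (ζ i) - ∑ j ∈ range (N - i), c (i + j) • ζ (i + j) =
              (P (ζ i) - ∑ j ∈ range N, c j • ζ j) + ∑ j ∈ range i, c j • ζ j := by
            conv_rhs => rw [show N = i + (N - i) by omega, sum_range_add]
            abel
          rw [e]
          refine (norm_add_le _ _).trans ?_
          have b2 : ‖∑ j ∈ range i, c j • ζ j‖ ≤ i * (2 * η') := by
            refine (norm_sum_le _ _).trans ?_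
            have := sum_le_card_nsmul (range i) (fun j => ‖c j • ζ j‖) (2 * η') fun j hj => by
              have hj := mem_range.mp hj
              obtain ⟨q, hq⟩ := H3 j hj (by omega)
              have a1 : inner ℂ (ζ j) (P (ζ i)) = inner ℂ (P (ζ j) - q • ζ j) (ζ i) := by
                rw [inner_sub_left, inner_smul_left, hc.orth j (by omega) i hiN hj.ne,
                  hc.pr.inner_left]
                simp
              have a2 := norm_inner_le_norm (𝕜 := ℂ) (P (ζ j) - q • ζ j) (ζ i)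
              rw [hc.n1 i hiN, mul_one, ← a1] at a2
              have a3 := hco j (by omega)
              have a4 := norm_sub_le (inner ℂ (ζ j) (P (ζ i))) (inner ℂ (ζ j) (P (ζ i)) - c j)
              rw [sub_sub_cancel] at a4
              rw [norm_smul, hc.n1 j (by omega), mul_one]
              linarith
            rwa [card_range, nsmul_eq_mul] at this
          linarith
        · intro j hj
          have a2 := norm_inner_le_norm (𝕜 := ℂ) (ζ (i + j)) (P (ζ i))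
          have a3 := hco (i + j) (by omega)
          have a4 := norm_sub_le (inner ℂ (ζ (i + j)) (P (ζ i)))
            (inner ℂ (ζ (i + j)) (P (ζ i)) - c (i + j))
          have a5 := hc.pr.le (ζ i)
          rw [sub_sub_cancel] at a4
          rw [hc.n1 _ (by omega), one_mul] at a2
          rw [hc.n1 i hiN] at a5
          linarith
      · refine ⟨0, ?_⟩
        rw [zero_smul, sub_zero]
        have a1 : ‖inner ℂ (ζ i) (P (ζ i))‖ = ‖P (ζ i)‖ ^ 2 := by
          rw [← hc.pr.ap, ← hc.pr.inner_left, inner_self_eq_norm_sq_to_K, hc.pr.ap]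
          simp
        have a3 := hco i hiN
        have a4 := norm_add_le (inner ℂ (ζ i) (P (ζ i)) - c i) (c i)
        rw [sub_add_cancel, a1] at a4
        refine (pow_le_pow_iff_left₀ (norm_nonneg _) hη.le two_ne_zero).mp ?_
        linarith [not_le.mp hθ]
    · obtain ⟨q, hq⟩ := H3 i hi hiN
      exact ⟨q, hq.trans h2⟩

lemma fiber {μ η : ℝ} (hμ : 0 < μ) (hη : 0 < η) (N : ℕ) : ∃ δ : ℝ, 0 < δ ∧
    ∀ (P T : Op) (ζ : ℕ → H) (w : ℕ → ℂ) (ρ : ℝ) (err : ℕ → ℝ), Proj P →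
      (∀ v, P (T (P v)) = T (P v)) → (∀ v, ‖T v‖ ≤ ‖v‖) → (∀ i < N, ‖ζ i‖ = ρ) →
      (∀ i < N, ∀ j < N, i ≠ j → inner ℂ (ζ i) (ζ j) = 0) →
      (∀ r, r + 1 < N → T (ζ r) = w r • ζ (r + 1) ∧ μ ≤ ‖w r‖) →
      (∀ r, r + 1 = N → ‖T (ζ r)‖ ≤ δ * ρ) →
      (∀ r < N, ∃ c : ℕ → ℂ, ‖P (ζ r) - ∑ i ∈ range N, c i • ζ i‖ ≤ err r) →
      ∀ r < N, ∃ q : ℂ, ‖P (ζ r) - q • ζ r‖ ^ 2 ≤
        η ^ 2 * ρ ^ 2 + (∑ i ∈ range N, err i ^ 2) / δ ^ 2 := by
  obtain ⟨δ, hδ, H1⟩ := diag hμ N N η hη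
  refine ⟨δ, hδ, fun P T ζ w ρ err hP hinv hT hn ho hs hl ha r hr => ?_⟩
  have hρ : 0 ≤ ρ := by rw [← hn r hr]; exact norm_nonneg _
  have hs0 : 0 ≤ (∑ i ∈ range N, err i ^ 2) / δ ^ 2 := by positivity
  by_cases hb : ρ = 0 ∨ ∃ i < N, δ * ρ < err i
  · refine ⟨0, ?_⟩
    rw [zero_smul, sub_zero]
    have a1 := pow_le_pow_left₀ (norm_nonneg _) (hP.le (ζ r)) 2
    rw [hn r hr] at a1
    have a2 : ρ ^ 2 ≤ (∑ i ∈ range N, err i ^ 2) / δ ^ 2 := by
      rcases hb with h0 | ⟨i, hi, h0⟩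
      · rw [h0]; simpa using hs0
      · rw [le_div_iff₀ (by positivity)]
        have a3 := single_le_sum (f := fun i => err i ^ 2) (fun i _ => sq_nonneg _)
          (mem_range.mpr hi)
        have a4 := pow_le_pow_left₀ (by positivity) h0.le 2
        nlinarith
    have : 0 ≤ η ^ 2 * ρ ^ 2 := by positivity
    linarith
  · push Not at hb
    have hρ' : 0 < ρ := lt_of_le_of_ne hρ hb.1.symm
    have hn' : ‖((ρ⁻¹ : ℝ) : ℂ)‖ = ρ⁻¹ := by
      rw [Complex.norm_real, Real.norm_of_nonneg (by positivity)]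
    obtain ⟨q, hq⟩ := H1 P T (fun i => ((ρ⁻¹ : ℝ) : ℂ) • ζ i) w
      ⟨hP, hinv, hT, fun i hi => by rw [norm_smul, hn', hn i hi, inv_mul_cancel₀ hb.1],
        fun i hi j hj hij => by rw [inner_smul_left, inner_smul_right, ho i hi j hj hij]; simp,
        fun r hr => ⟨by rw [map_smul, (hs r hr).1, smul_comm], (hs r hr).2⟩,
        fun r hr => by
          rw [map_smul, norm_smul, hn', inv_mul_le_iff₀ hρ', mul_comm]
          exact hl r hr,
        fun r hr => by
          obtain ⟨c, hc⟩ := ha r hr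
          refine ⟨c, ?_⟩
          simp only [smul_comm (c _), map_smul]
          rw [← smul_sum, ← smul_sub, norm_smul, hn', inv_mul_le_iff₀ hρ', mul_comm]
          exact hc.trans (hb.2 r hr)⟩ r hr hr
    refine ⟨q, ?_⟩
    rw [map_smul, smul_comm q, ← smul_sub, norm_smul, hn', inv_mul_le_iff₀ hρ'] at hq
    have := pow_le_pow_left₀ (norm_nonneg _) hq 2
    nlinarith

end

end Vale.Agent.P131
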