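import Vale.Agent.P131.Fiber

namespace Vale.Agent.P131

open scoped symmDiff
open Finset

noncomputable section

def Zs (i : ℕ) : Op := Z {i}
def Zs' (i : ℕ) : Op := Z' {i}

lemma famL : Fam Zs :=
  ⟨fun _ => Z_star _, fun _ => by rw [Zs, Z_mul, sd_self, Z_empty], fun i j => by
    rw [Commute, SemiconjBy, Zs, Zs, Z_mul, Z_mul, symmDiff_comm]⟩

lemma famR : Fam Zs' :=
  ⟨fun _ => Z'_star _, fun _ => by rw [Zs', Z'_mul, sd_self, Z'_empty], fun i j => by
    rw [Commute, SemiconjBy, Zs', Zs', Z'_mul, Z'_mul, symmDiff_comm]⟩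

def DL (φ : Finset ℕ → ℂ) : Op := DD Zs φ
def DR (φ : Finset ℕ → ℂ) : Op := DD Zs' φ

lemma DL_mem (φ : Finset ℕ → ℂ) : DL φ ∈ N := mem_N.mpr fun a =>
  ⟨DD_commute (fun _ => (mem_N.mp (Z_mem _) a).1) φ,
    DD_commute (fun _ => (mem_N.mp (Z_mem _) a).2) φ⟩

lemma DR_comm {A : Op} (hA : A ∈ N) (φ : Finset ℕ → ℂ) (v : H) : A (DR φ v) = DR φ (A v) := by
  have : Commute A (DR φ) := DD_commute (fun i => ((mem_N.mp hA {i}).2).symm) φ
  rw [← mul_ap, this.eq, mul_ap]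

lemma X'_comm {A : Op} (hA : A ∈ N) (a : Finset ℕ) (v : H) : A (X' a v) = X' a (A v) := by
  rw [← mul_ap, ← (mem_N.mp hA a).1, mul_ap]

lemma DL_ξ (φ : Finset ℕ → ℂ) : DL φ ξ = DR φ ξ := by
  have : ∀ m φ, D Zs m φ ξ = D Zs' m φ ξ := by
    intro m
    induction m with
    | zero => intro φ; rfl
    | succ m ih =>
      intro φ
      have c : ∀ χ, Commute (Zs m) (D Zs' m χ) := fun χ =>
        D_commute (fun i => ((mem_N.mp (Z_mem {m}) {i}).2).symm) m χ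
      have c' : ∀ χ, Commute (Zs' m) (D Zs' m χ) := fun χ => D_commute (famR.comm m) m χ
      have k : ∀ χ, Zs m (D Zs' m χ ξ) = Zs' m (D Zs' m χ ξ) := fun χ => by
        rw [← mul_ap, (c χ).eq, ← mul_ap, (c' χ).eq, mul_ap, mul_ap, Zs, Zs', Z_ξ]
      simp only [D, add_apply, mul_ap, ih, e0, e1, smul_apply, sub_apply, k]
  unfold DL DR DD
  split_ifs
  · exact this _ _
  · rfl

lemma X_DL (a : Finset ℕ) {φ : Finset ℕ → ℂ} (h : Cyl φ) :
    X a * DL φ = DL (fun S => φ (S ∆ a)) * X a :=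
  DD_shift (fun _ => X_Z a _) h

lemma DL_mul {φ ψ : Finset ℕ → ℂ} (h : Cyl φ) (h' : Cyl ψ) :
    DL φ * DL ψ = DL fun S => φ S * ψ S := DD_mul famL h h'

lemma Z_eq (β : Finset ℕ) : Z β = DL (sg β) := by
  induction β using Finset.induction_on with
  | empty =>
    rw [Z_empty, show sg ∅ = fun _ => 1 from funext sg_empty_left]
    exact DD_one.symm
  | insert i β hi ih =>
    have e : insert i β = {i} ∆ β := by
      ext j
      simp only [mem_insert, mem_symmDiff, mem_singleton]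
      by_cases h : j = i
      · subst h; simp [hi]
      · simp [h]
    rw [e, ← Z_mul, ih, show Z {i} = DL (sg {i}) from (DD_z (z := Zs) i).symm,
      DL_mul (cyl_sg _) (cyl_sg _)]
    congr 1
    funext S
    rw [sg_left]

lemma XD_mul (a b : Finset ℕ) {φ ψ : Finset ℕ → ℂ} (h : Cyl φ) (h' : Cyl ψ) :
    X a * DL φ * (X b * DL ψ) = X (a ∆ b) * DL fun S => φ (S ∆ b) * ψ S := by
  have e : DL φ * X b = X b * DL fun S => φ (S ∆ b) := by
    rw [X_DL b (h.shift b)]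
    simp
  rw [← X_mul, ← DL_mul (h.shift b) h', mul_assoc, ← mul_assoc (DL φ), e]
  simp only [mul_assoc]

def xb (k : ℕ) : ℕ := Nat.pair 0 k
def sb (k i : ℕ) : ℕ := Nat.pair (i + 1) k

@[simp] lemma xb_inj {j k : ℕ} : xb j = xb k ↔ j = k := by simp [xb, Nat.pair_eq_pair]
@[simp] lemma xb_sb {j k i : ℕ} : xb j = sb k i ↔ False := by simp [xb, sb, Nat.pair_eq_pair]
@[simp] lemma sb_xb {j k i : ℕ} : sb k i = xb j ↔ False := by simp [xb, sb, Nat.pair_eq_pair]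
@[simp] lemma sb_inj {j k i i' : ℕ} : sb j i = sb k i' ↔ i = i' ∧ j = k := by
  simp [sb, Nat.pair_eq_pair]

lemma bit_cases (j : ℕ) : (∃ k, j = xb k) ∨ ∃ k i, j = sb k i := by
  rcases h : (Nat.unpair j).1 with _ | i
  · exact Or.inl ⟨(Nat.unpair j).2, by rw [xb, ← h, Nat.pair_unpair]⟩
  · exact Or.inr ⟨(Nat.unpair j).2, i, by rw [sb, ← h, Nat.pair_unpair]⟩

def xs (a : Finset ℕ) : Finset ℕ := a.image xb

@[simp] lemma xb_mem {j : ℕ} {a : Finset ℕ} : xb j ∈ xs a ↔ j ∈ a := by simp [xs]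
@[simp] lemma sb_mem {k i : ℕ} {a : Finset ℕ} : sb k i ∈ xs a ↔ False := by simp [xs]

lemma xs_sd (a b : Finset ℕ) : xs (a ∆ b) = xs a ∆ xs b :=
  image_symmDiff _ _ fun _ _ h => xb_inj.mp h

def gg (k : ℕ) : Finset ℕ := xs (range (k + 1))

def pat (k : ℕ) (S : Finset ℕ) : Prop := (∀ j < k, xb j ∈ S) ∧ xb k ∉ S

lemma pat_unique {j k : ℕ} {S : Finset ℕ} (h : pat j S) (h' : pat k S) : j = k := by
  rcases lt_trichotomy j k with hh | hh | hh
  · exact absurd (h'.1 j hh) h.2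
  · exact hh
  · exact absurd (h.1 k hh) h'.2

lemma cyl_pat (k : ℕ) : Cyl (pat k) := by
  have := (Cyl.inter (gg k)).map (pat k)
  convert this using 2 with S
  simp only [pat, gg, mem_inter, xb_mem, mem_range]
  refine and_congr (forall₂_congr fun j hj => ?_) ?_
  · simp [Nat.lt_succ_of_lt hj]
  · simp

open Classical in
def ind (p : Prop) : ℂ := if p then 1 else 0

lemma ind_pos {p : Prop} (h : p) : ind p = 1 := if_pos h
lemma ind_neg {p : Prop} (h : ¬ p) : ind p = 0 := if_neg h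
lemma of_ind {p : Prop} (h : ind p ≠ 0) : p := by
  by_contra h'; exact h (ind_neg h')
lemma norm_ind (p : Prop) : ‖ind p‖ ≤ 1 := by
  unfold ind; split_ifs <;> simp

variable (L : ℕ → ℕ) (ε : ℕ → ℝ)

def u (k : ℕ) (S : Finset ℕ) : ℂ :=
  ∏ i ∈ range (L k), if sb k i ∈ S ∧ xb k ∈ S then 1 / 2 else 1

def f (n : ℕ) (S : Finset ℕ) : ℂ := ∏ k ∈ range n, u L k S

def M (n : ℕ) : ℕ := ∑ k ∈ range n, L k

lemma cyl_f (n : ℕ) : Cyl (f L n) :=
  Cyl.prod _ fun k _ => Cyl.prod _ fun i _ => by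
    classical
    have := (Cyl.mem (sb k i)).two (Cyl.mem (xb k)) fun p q => if p ∧ q then (1 / 2 : ℂ) else 1
    refine (congrArg Cyl ?_).mp this
    funext S
    by_cases h : sb k i ∈ S ∧ xb k ∈ S <;> simp [h]

lemma u_bound (k : ℕ) (S : Finset ℕ) : (1 / 2) ^ L k ≤ ‖u L k S‖ ∧ ‖u L k S‖ ≤ 1 := by
  rw [u, norm_prod]
  constructor
  · have : (1 / 2 : ℝ) ^ L k = ∏ _i ∈ range (L k), (1 / 2 : ℝ) := by simp
    rw [this]
    refine prod_le_prod (fun _ _ => by norm_num) fun i _ => ?_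
    split_ifs <;> norm_num
  · refine prod_le_one (fun _ _ => norm_nonneg _) fun i _ => ?_
    split_ifs <;> norm_num

lemma f_bound (n : ℕ) (S : Finset ℕ) : (1 / 2) ^ M L n ≤ ‖f L n S‖ ∧ ‖f L n S‖ ≤ 1 := by
  rw [f, norm_prod, M, ← prod_pow_eq_pow_sum]
  exact ⟨prod_le_prod (fun _ _ => by positivity) fun k _ => (u_bound L k S).1,
    prod_le_one (fun _ _ => norm_nonneg _) fun k _ => (u_bound L k S).2⟩

lemma u_ne (k : ℕ) (S : Finset ℕ) : u L k S ≠ 0 :=
  norm_pos_iff.mp (lt_of_lt_of_le (by positivity) (u_bound L k S).1)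

lemma f_ne (n : ℕ) (S : Finset ℕ) : f L n S ≠ 0 :=
  norm_pos_iff.mp (lt_of_lt_of_le (by positivity) (f_bound L n S).1)

lemma f_stable {a : Finset ℕ} {k : ℕ} (h : ∀ j, k ≤ j → xb j ∉ a ∧ ∀ i, sb j i ∉ a)
    (S : Finset ℕ) (n : ℕ) (hn : k ≤ n) :
    f L n (S ∆ a) / f L n S = f L k (S ∆ a) / f L k S := by
  induction n, hn using Nat.le_induction with
  | base => rfl
  | succ n hn ih =>
    have : u L n (S ∆ a) = u L n S := prod_congr rfl fun i _ => by
      simp [mem_symmDiff, (h n hn).1, (h n hn).2 i]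
    rw [← ih]
    simp only [f, prod_range_succ, this]
    rw [mul_div_mul_right _ _ (u_ne L n S)]

def φ (k : ℕ) (S : Finset ℕ) : ℂ :=
  ind (pat k S) * (ε k * (f L (k + 1) (S ∆ gg k) / f L (k + 1) S))

def ψ (j i : ℕ) (S : Finset ℕ) : ℂ := f L (j + 1) (S ∆ {sb j i}) / f L (j + 1) S

lemma cyl_φ (k : ℕ) : Cyl (φ L ε k) :=
  ((cyl_pat k).map ind).mul ((((cyl_f L _).shift _).two (cyl_f L _) (· / ·)).map (ε k * ·))

lemma cyl_ψ (j i : ℕ) : Cyl (ψ L j i) := ((cyl_f L _).shift _).two (cyl_f L _) (· / ·)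

lemma ψ_ne (j i : ℕ) (S : Finset ℕ) : ψ L j i S ≠ 0 := div_ne_zero (f_ne L _ _) (f_ne L _ _)

lemma pat_sb (k j i : ℕ) (S : Finset ℕ) : pat k (S ∆ {sb j i}) ↔ pat k S := by
  simp [pat, mem_symmDiff]

lemma φ_ψ (k j i : ℕ) (S : Finset ℕ) :
    φ L ε k (S ∆ {sb j i}) * ψ L j i S = ψ L j i (S ∆ gg k) * φ L ε k S := by
  have h1 := fun S => f_stable L (a := gg k) (k := k + 1) (fun j hj => by
    simp [gg]; omega) S (k + j + 1) (by omega)
  have h2 := fun S => f_stable L (a := {sb j i}) (k := j + 1) (fun j hj => by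
    simp; omega) S (k + j + 1) (by omega)
  simp only [φ, ψ, ← h1, ← h2, pat_sb]
  rw [symmDiff_right_comm S {sb j i}]
  have := f_ne L (k + j + 1) S
  have := f_ne L (k + j + 1) (S ∆ {sb j i})
  have := f_ne L (k + j + 1) (S ∆ gg k)
  field_simp

lemma ψ_val {j i : ℕ} (hi : i < L j) {S : Finset ℕ} (hS : sb j i ∉ S) :
    ψ L j i S = if xb j ∈ S then 1 / 2 else 1 := by
  have : f L j (S ∆ {sb j i}) = f L j S := prod_congr rfl fun k hk => prod_congr rfl fun i' _ => by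
    have := mem_range.mp hk
    simp [mem_symmDiff, this.ne]
  simp only [ψ, f, prod_range_succ]
  rw [← f, ← f, this, mul_div_mul_left _ _ (f_ne L j S), u, u, ← prod_div_distrib,
    prod_eq_single i]
  · simp [mem_symmDiff, hS]
  · intro i' _ h
    simp only [mem_symmDiff, mem_singleton, sb_inj, h, false_and, not_false_eq_true, and_true,
      or_false, xb_sb]
    split_ifs <;> norm_num
  · intro h
    exact absurd (mem_range.mpr hi) h

lemma φ_upper (hε : ∀ k, 0 < ε k) (k : ℕ) (S : Finset ℕ) :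
    ‖φ L ε k S‖ ≤ ε k * 2 ^ M L (k + 1) := by
  rw [φ, norm_mul, norm_mul, norm_div, Complex.norm_real, Real.norm_of_nonneg (hε k).le]
  have h1 := (f_bound L (k + 1) (S ∆ gg k)).2
  have h2 := (f_bound L (k + 1) S).1
  have h3 : ‖f L (k + 1) (S ∆ gg k)‖ / ‖f L (k + 1) S‖ ≤ 2 ^ M L (k + 1) := by
    refine (div_le_div₀ zero_le_one h1 (by positivity) h2).trans (le_of_eq ?_)
    simp
  have h4 := mul_le_mul_of_nonneg_left h3 (hε k).le
  have h5 := hε k
  exact (mul_le_of_le_one_left (by positivity) (norm_ind _)).trans h4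

lemma φ_lower (hε : ∀ k, 0 < ε k) {k : ℕ} {S : Finset ℕ} (h : pat k S) :
    ε k * (1 / 2) ^ M L (k + 1) ≤ ‖φ L ε k S‖ := by
  rw [φ, ind_pos h, one_mul, norm_mul, norm_div, Complex.norm_real,
    Real.norm_of_nonneg (hε k).le]
  refine mul_le_mul_of_nonneg_left ?_ (hε k).le
  rw [le_div_iff₀ (norm_pos_iff.mpr (f_ne L _ _))]
  exact (mul_le_of_le_one_right (by positivity) (f_bound L (k + 1) S).2).trans
    (f_bound L (k + 1) _).1

def Tk (k : ℕ) : Op := X (gg k) * DL (φ L ε k)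

def T : Op := ∑' k, Tk L ε k

structure Par (d : ℕ → ℝ) : Prop where
  pos : ∀ k, 0 < ε k
  bd : ∀ k, ε k * 2 ^ M L (k + 1) ≤ d k / 2 / 2 ^ k
  one : ∀ k, d k ≤ 1
  anti : Antitone d

lemma T_commute {A : Op} (h : ∀ k, Commute A (Tk L ε k)) : Commute A (T L ε) :=
  Commute.tsum_right _ h

lemma T_mem : T L ε ∈ N := mem_N.mpr fun a =>
  ⟨T_commute L ε fun _ => (mem_N.mp (N.mul_mem (X_mem _) (DL_mem _)) a).1,
    T_commute L ε fun _ => (mem_N.mp (N.mul_mem (X_mem _) (DL_mem _)) a).2⟩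

lemma T_Z (j i : ℕ) : Commute (Z {sb j i}) (T L ε) := T_commute L ε fun k => by
  refine Commute.mul_right ?_ (DD_commute (famL.comm _) _)
  rw [Commute, SemiconjBy, X_Z, sg_single]
  simp [gg]

def Y (j i : ℕ) : Op := X {sb j i} * DL (ψ L j i)

lemma T_Y (j i : ℕ) : Commute (Y L j i) (T L ε) := T_commute L ε fun k => by
  rw [Commute, SemiconjBy, Y, Tk, XD_mul _ _ (cyl_ψ L j i) (cyl_φ L ε k),
    XD_mul _ _ (cyl_φ L ε k) (cyl_ψ L j i), symmDiff_comm]
  simp only [φ_ψ]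

variable {L ε} {d : ℕ → ℝ}

lemma Par.Tk_le (h : Par L ε d) (k : ℕ) (v : H) : ‖Tk L ε k v‖ ≤ d k / 2 / 2 ^ k * ‖v‖ := by
  rw [Tk, mul_ap, X_norm]
  exact DD_norm famL (cyl_φ L ε k) (fun S => (φ_upper L ε h.pos k S).trans (h.bd k)) v

lemma Par.d_pos (h : Par L ε d) (k : ℕ) : 0 < d k := by
  have h1 := h.bd k
  have h2 := h.pos k
  have h3 : 0 < d k / 2 / 2 ^ k := lt_of_lt_of_le (by positivity) h1
  by_contra h4
  have : d k / 2 / 2 ^ k ≤ 0 :=
    div_nonpos_of_nonpos_of_nonneg (by linarith) (by positivity)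
  linarith

lemma Par.summable (h : Par L ε d) : Summable (Tk L ε) := by
  refine Summable.of_norm_bounded (hasSum_geometric_two' 1).summable fun k => ?_
  refine ContinuousLinearMap.opNorm_le_bound _ (by positivity) fun v => (h.Tk_le k v).trans ?_
  gcongr
  exact h.one k

lemma Par.hasSum (h : Par L ε d) (v : H) : HasSum (fun k => Tk L ε k v) (T L ε v) :=
  h.summable.hasSum.mapL (ContinuousLinearMap.apply ℂ H v)

lemma Par.T_tail (h : Par L ε d) (l : ℕ) (v : H) (hv : ∀ k < l, Tk L ε k v = 0) :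
    ‖T L ε v‖ ≤ d l * ‖v‖ := by
  refine (h.hasSum v).norm_le_of_bounded (hasSum_geometric_two' (d l * ‖v‖)) fun k => ?_
  have := h.d_pos l
  by_cases hk : k < l
  · rw [hv k hk, norm_zero]; positivity
  · refine (h.Tk_le k v).trans ?_
    have h1 := h.anti (not_lt.mp hk)
    calc d k / 2 / 2 ^ k * ‖v‖ ≤ d l / 2 / 2 ^ k * ‖v‖ := by gcongr
      _ = _ := by ring

lemma Par.T_le (h : Par L ε d) (v : H) : ‖T L ε v‖ ≤ ‖v‖ :=
  (h.T_tail 0 v fun _ hk => absurd hk (Nat.not_lt_zero _)).trans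
    (mul_le_of_le_one_left (norm_nonneg _) (h.one 0))

lemma Tk_zero {k : ℕ} {χ : Finset ℕ → ℂ} (hχ : Cyl χ) (h : ∀ S, χ S ≠ 0 → ¬ pat k S) (v : H) :
    Tk L ε k (DL χ v) = 0 := by
  rw [Tk, mul_ap, ← mul_ap (DL _), DL_mul (cyl_φ L ε k) hχ]
  have : (fun S => φ L ε k S * χ S) = fun _ => 0 := funext fun S => by
    by_cases h1 : χ S = 0
    · rw [h1, mul_zero]
    · rw [φ, ind_neg (h S h1), zero_mul, zero_mul]
  rw [this, DL, DD_zero]
  simp

lemma Par.T_pat (h : Par L ε d) {k : ℕ} {χ : Finset ℕ → ℂ} (hχ : Cyl χ)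
    (hp : ∀ S, χ S ≠ 0 → pat k S) (v : H) :
    T L ε (DL χ v) = X (gg k) (DL (fun S => φ L ε k S * χ S) v) := by
  rw [← DL_mul (cyl_φ L ε k) hχ]
  refine (h.hasSum _).unique (hasSum_single k fun j hj => ?_)
  exact Tk_zero hχ (fun S hS h1 => hj (pat_unique h1 (hp S hS))) v

end

end Vale.Agent.P131
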