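import Vale.Agent.P131.Est

namespace Vale.Agent.P131

open scoped symmDiff
open Finset

noncomputable section

structure Good (L : ℕ → ℕ) (ε d : ℕ → ℝ) : Prop where
  par : Par L ε d
  fib : ∀ l, ∃ μ δ : ℝ, FP (2 ^ l) μ ((1 / 2) ^ l) δ ∧ d l ≤ δ ∧
    ∀ k < l, μ ≤ ε k * (1 / 2) ^ M L (k + 1)
  big : ∀ k, (64 : ℝ) ^ k ≤ L k * d k ^ 4

lemma exists_good : ∃ L ε d, Good L ε d := by
  have h0 : ∀ (l : ℕ) (μ : ℝ), ∃ δ : ℝ, 0 < μ → 0 < δ ∧ FP (2 ^ l) μ ((1 / 2) ^ l) δ := by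
    intro l μ
    by_cases hμ : 0 < μ
    · obtain ⟨δ, h1, h2⟩ := fiber (η := (1 / 2) ^ l) hμ (by positivity) (2 ^ l)
      exact ⟨δ, fun _ => ⟨h1, h2⟩⟩
    · exact ⟨0, fun h => absurd h hμ⟩
  choose δ hδ using h0
  let dd : ℕ → ℝ × ℕ × ℝ → ℝ := fun l s => min s.2.2 (δ l s.1)
  let LL : ℕ → ℝ × ℕ × ℝ → ℕ := fun l s => ⌈64 ^ l / dd l s ^ 4⌉₊
  let ee : ℕ → ℝ × ℕ × ℝ → ℝ := fun l s => dd l s / 2 / 2 ^ l / 2 ^ (s.2.1 + LL l s)
  let st : ℕ → ℝ × ℕ × ℝ := fun n => Nat.rec (1, 0, 1)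
    (fun l s => (min s.1 (ee l s * (1 / 2) ^ (s.2.1 + LL l s)), s.2.1 + LL l s, dd l s)) n
  have s1 : ∀ l, (st (l + 1)).1 =
    min (st l).1 (ee l (st l) * (1 / 2) ^ ((st l).2.1 + LL l (st l))) := fun _ => rfl
  have s2 : ∀ l, (st (l + 1)).2.1 = (st l).2.1 + LL l (st l) := fun _ => rfl
  have s3 : ∀ l, (st (l + 1)).2.2 = dd l (st l) := fun _ => rfl
  have inv : ∀ l, 0 < (st l).1 ∧ 0 < (st l).2.2 ∧ (st l).2.2 ≤ 1 := by
    intro l
    induction l with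
    | zero => exact ⟨one_pos, one_pos, le_rfl⟩
    | succ l ih =>
      have h1 : 0 < dd l (st l) := lt_min ih.2.1 (hδ l _ ih.1).1
      refine ⟨?_, h1, (min_le_left _ _).trans ih.2.2⟩
      rw [s1]
      refine lt_min ih.1 ?_
      simp only [ee]
      positivity
  have dpos : ∀ l, 0 < dd l (st l) := fun l => (inv (l + 1)).2.1
  have hM : ∀ l, M (fun k => LL k (st k)) l = (st l).2.1 := by
    intro l
    induction l with
    | zero => rfl
    | succ l ih => rw [s2, ← ih, M, sum_range_succ, M]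
  have anti : Antitone fun l => (st l).1 :=
    antitone_nat_of_succ_le fun l => by rw [s1]; exact min_le_left _ _
  refine ⟨fun k => LL k (st k), fun k => ee k (st k), fun k => dd k (st k),
    ⟨fun k => ?_, fun k => ?_, fun k => (inv (k + 1)).2.2,
      antitone_nat_of_succ_le fun l => min_le_left _ _⟩,
    fun l => ⟨(st l).1, δ l (st l).1, (hδ l _ (inv l).1).2, min_le_right _ _, fun k hk => ?_⟩,
    fun k => ?_⟩
  · have := dpos k
    simp only [ee]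
    positivity
  · rw [hM, s2]
    simp only [ee]
    rw [div_mul_cancel₀ _ (by positivity)]
  · rw [hM, s2]
    refine (anti (Nat.succ_le_of_lt hk)).trans ?_
    simp only
    rw [s1]
    exact min_le_right _ _
  · have := dpos k
    rw [← div_le_iff₀ (by positivity)]
    exact Nat.le_ceil _

variable {L : ℕ → ℕ} {ε d : ℕ → ℝ} {P : Op}

lemma cm_Z (hP : P ∈ N) (a : Finset ℕ) : cm P (Z a) ξ = Z a (P ξ) - Z' a (P ξ) := by
  rw [cm, sub_apply, mul_ap, mul_ap, Z_ξ, ← mul_ap P, ← (mem_N.mp hP a).2, mul_ap]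

lemma cm_X (hP : P ∈ N) (a : Finset ℕ) : cm P (X a) ξ = X a (P ξ) - X' a (P ξ) := by
  rw [cm, sub_apply, mul_ap, mul_ap, X_ξ, X'_comm hP]

lemma comm_of_cm (hP : P ∈ N) {A : Op} (hA : A ∈ N) (h : cm P A ξ = 0) : Commute A P :=
  sub_eq_zero.mp (faithful (cm_mem hP hA) h)

lemma Good.xb_le (hg : Good L ε d) (h : Hyp (T L ε) P) (k : ℕ) :
    ‖cm P (Z {xb k}) ξ‖ ^ 2 ≤ 128 * d k ^ 2 * (1 / 8) ^ k := by
  have h1 := bessel h k
  have h2 := hg.big k
  generalize ‖cm P (Z {xb k}) ξ‖ ^ 2 = x at h1 ⊢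
  have h3 : (8 ^ k * x) ^ 2 ≤ (128 * d k ^ 2) ^ 2 := by
    have e : ((8 : ℝ) ^ k) ^ 2 = 64 ^ k := by rw [← pow_mul, mul_comm, pow_mul]; norm_num
    rw [mul_pow, e]
    calc 64 ^ k * x ^ 2 ≤ L k * d k ^ 4 * x ^ 2 := by gcongr
      _ = d k ^ 4 * (L k * x ^ 2) := by ring
      _ ≤ d k ^ 4 * 128 ^ 2 := by gcongr
      _ = _ := by ring
  have h4 := (abs_le_of_sq_le_sq' h3 (by positivity)).2
  rw [one_div, inv_pow, ← div_eq_mul_inv, le_div_iff₀ (by positivity)]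
  linarith

lemma Good.commZ (hg : Good L ε d) (h : Hyp (T L ε) P) (j : ℕ) : Commute (Z {j}) P := by
  have hP := h.mem (T_mem L ε)
  refine comm_of_cm hP (Z_mem _) ?_
  have key : ∀ l : ℕ, ‖cm P (Z {j}) ξ‖ ^ 2 ≤ 4 * 258 * (1 / 2) ^ l := by
    intro l
    obtain ⟨μ, δ, h1, h2, h3⟩ := hg.fib l
    have d0 := hg.par.d_pos l
    obtain ⟨s, hs, hs'⟩ := mass (P ξ) (xs (range l)) (κ := 256 * (d l ^ 2 * (1 / 4) ^ l))
      (τ := d l ^ 2 * (1 / 4) ^ l) (by positivity) (by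
        intro G hG
        rw [← sum_preimage xb G (fun _ _ _ _ hh => xb_inj.mp hh) _ (by
          intro i _ hi
          rcases bit_cases i with ⟨k, rfl⟩ | ⟨k, i, rfl⟩
          · exact absurd ⟨k, rfl⟩ hi
          · rw [← cm_Z hP, cm, (h.comm (Z_star _) (T_Z L ε k i)).eq]
            simp)]
        have b1 := hasSum_geometric_two.mul_left (128 * (d l ^ 2 * (1 / 4) ^ l))
        refine le_trans (sum_le_sum fun k hk => ?_)
          ((sum_le_hasSum _ (fun k _ => by positivity) b1).trans (le_of_eq (by ring)))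
        have hk' : l ≤ k := by
          by_contra hh
          exact disjoint_left.mp hG (mem_preimage.mp hk)
            (xb_mem.mpr (mem_range.mpr (not_le.mp hh)))
        rw [← cm_Z hP]
        refine (hg.xb_le h k).trans ?_
        have b2 : (1 / 4 : ℝ) ^ k ≤ (1 / 4) ^ l :=
          pow_le_pow_of_le_one (by norm_num) (by norm_num) hk'
        have b3 := hg.par.anti hk'
        have b4 := hg.par.d_pos k
        have e : (1 / 8 : ℝ) ^ k = (1 / 4) ^ k * (1 / 2) ^ k := by rw [← mul_pow]; norm_num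
        rw [e]
        calc 128 * d k ^ 2 * ((1 / 4) ^ k * (1 / 2) ^ k)
            ≤ 128 * d l ^ 2 * ((1 / 4) ^ l * (1 / 2) ^ k) := by gcongr
          _ = _ := by ring)
    refine (main_est hg.par h h1 h2 h3 hs (P ξ) j).trans ?_
    have b1 : 2 ^ l * ‖P ξ - ∑ x ∈ s, P ξ x • dl x‖ ^ 2 / δ ^ 2 ≤ 257 * (1 / 2) ^ l := by
      have e : (2 : ℝ) ^ l * (1 / 4) ^ l = (1 / 2) ^ l := by rw [← mul_pow]; norm_num
      rw [div_le_iff₀ (by have := d0.trans_le h2; positivity)]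
      calc 2 ^ l * ‖P ξ - ∑ x ∈ s, P ξ x • dl x‖ ^ 2
          ≤ 2 ^ l * (d l ^ 2 * (1 / 4) ^ l + 256 * (d l ^ 2 * (1 / 4) ^ l)) := by gcongr
        _ = 257 * (2 ^ l * (1 / 4) ^ l) * d l ^ 2 := by ring
        _ ≤ _ := by rw [e]; gcongr
    have b2 : ((1 / 2 : ℝ) ^ l) ^ 2 ≤ (1 / 2) ^ l :=
      pow_le_of_le_one (by positivity) (pow_le_one₀ (by norm_num) (by norm_num)) two_ne_zero
    linarith
  have lim := (tendsto_pow_atTop_nhds_zero_of_lt_one (r := (1 / 2 : ℝ)) (by norm_num)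
    (by norm_num)).const_mul (4 * 258)
  have := ge_of_tendsto' lim key
  rw [mul_zero] at this
  exact norm_eq_zero.mp (pow_eq_zero_iff two_ne_zero |>.mp (le_antisymm this (sq_nonneg _)))

end

end Vale.Agent.P131
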