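import Mathlib

namespace Vale.Agent.P131

open scoped symmDiff

noncomputable section

abbrev Λ := Finset ℕ × Finset ℕ
abbrev H := lp (fun _ : Λ => ℂ) 2
abbrev Op := H →L[ℂ] H

lemma mul_ap (A B : Op) (v : H) : (A * B) v = A (B v) := rfl

def sg (a b : Finset ℕ) : ℂ := ∏ i ∈ a, if i ∈ b then -1 else 1

lemma sg_eq (a b : Finset ℕ) : sg a b = (-1) ^ (a ∩ b).card := by
  unfold sg
  rw [Finset.prod_ite_mem, Finset.prod_const]

lemma sg_comm (a b : Finset ℕ) : sg a b = sg b a := by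
  rw [sg_eq, sg_eq, Finset.inter_comm]

lemma sg_right (a b c : Finset ℕ) : sg a (b ∆ c) = sg a b * sg a c := by
  unfold sg
  rw [← Finset.prod_mul_distrib]
  refine Finset.prod_congr rfl fun i _ => ?_
  by_cases h1 : i ∈ b <;> by_cases h2 : i ∈ c <;> simp [Finset.mem_symmDiff, h1, h2]

lemma sg_left (a b c : Finset ℕ) : sg (a ∆ b) c = sg a c * sg b c := by
  rw [sg_comm, sg_right, sg_comm c, sg_comm c]

@[simp] lemma sg_empty_left (b : Finset ℕ) : sg ∅ b = 1 := by simp [sg]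

@[simp] lemma sg_empty_right (b : Finset ℕ) : sg b ∅ = 1 := by simp [sg]

lemma sg_single (i : ℕ) (b : Finset ℕ) : sg {i} b = if i ∈ b then -1 else 1 :=
  Finset.prod_singleton _ _

@[simp] lemma sd_empty (a : Finset ℕ) : a ∆ ∅ = a := symmDiff_bot a

@[simp] lemma empty_sd (a : Finset ℕ) : ∅ ∆ a = a := bot_symmDiff a

@[simp] lemma sd_self (a : Finset ℕ) : a ∆ a = ∅ := symmDiff_self a

lemma sg_sq (a b : Finset ℕ) : sg a b * sg a b = 1 := by
  rw [← sg_right, sd_self, sg_empty_right]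

@[simp] lemma norm_sg (a b : Finset ℕ) : ‖sg a b‖ = 1 := by
  rw [sg_eq]; simp

@[simp] lemma conj_sg (a b : Finset ℕ) : (starRingEnd ℂ) (sg a b) = sg a b := by
  rw [sg_eq]; simp

def sh (a b : Finset ℕ) : Λ ≃ Λ :=
  Function.Involutive.toPerm (fun x => (x.1 ∆ a, x.2 ∆ b)) fun x => by
    simp

lemma norm_eq_of_hasSum {f g : H} (σ : Λ ≃ Λ) (h : ∀ x, ‖f x‖ = ‖g (σ x)‖) : ‖f‖ = ‖g‖ := by
  have hp : 0 < (2 : ENNReal).toReal := by norm_num
  have h1 := lp.hasSum_norm hp f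
  have h2 := (σ.hasSum_iff).mpr (lp.hasSum_norm hp g)
  have h3 : ‖f‖ ^ (2 : ENNReal).toReal = ‖g‖ ^ (2 : ENNReal).toReal := by
    refine h1.unique ?_
    simp only [h]
    exact h2
  simp only [ENNReal.toReal_ofNat, Real.rpow_ofNat] at h3
  exact (pow_left_inj₀ (norm_nonneg _) (norm_nonneg _) two_ne_zero).mp h3

def Wf (a b p q : Finset ℕ) (f : H) : H :=
  ⟨fun x => sg p x.1 * sg q x.2 * f (x.1 ∆ a, x.2 ∆ b), by
    have hp : 0 < (2 : ENNReal).toReal := by norm_num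
    apply memℓp_gen
    have h2 := ((sh a b).summable_iff).mpr (lp.hasSum_norm hp f).summable
    simp only [norm_mul, norm_sg, one_mul]
    exact h2⟩

def Wi (a b p q : Finset ℕ) : H →ₗᵢ[ℂ] H where
  toFun := Wf a b p q
  map_add' f g := by
    ext x
    simp only [Wf, lp.coeFn_add, Pi.add_apply]
    exact mul_add _ _ _
  map_smul' c f := by
    ext x
    simp only [Wf, lp.coeFn_smul, Pi.smul_apply, smul_eq_mul, RingHom.id_apply]
    ring
  norm_map' f := norm_eq_of_hasSum (sh a b) fun x => by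
    show ‖sg p x.1 * sg q x.2 * f (x.1 ∆ a, x.2 ∆ b)‖ = _
    simp only [norm_mul, norm_sg, one_mul]
    rfl

def W (a b p q : Finset ℕ) : Op := (Wi a b p q).toContinuousLinearMap

lemma W_apply (a b p q : Finset ℕ) (f : H) (x : Λ) :
    W a b p q f x = sg p x.1 * sg q x.2 * f (x.1 ∆ a, x.2 ∆ b) := rfl

lemma W_norm (a b p q : Finset ℕ) (f : H) : ‖W a b p q f‖ = ‖f‖ := (Wi a b p q).norm_map f

lemma W_inner (a b p q : Finset ℕ) (f g : H) :
    inner ℂ (W a b p q f) (W a b p q g) = inner ℂ f g := (Wi a b p q).inner_map_map f g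

lemma W_mul (a b p q a' b' p' q' : Finset ℕ) : W a b p q * W a' b' p' q' =
    (sg p' a * sg q' b) • W (a ∆ a') (b ∆ b') (p ∆ p') (q ∆ q') := by
  ext f x
  simp only [mul_ap, W_apply, smul_apply,
    lp.coeFn_smul, Pi.smul_apply, smul_eq_mul, sg_right, sg_left, symmDiff_assoc]
  ring

lemma W_one : W ∅ ∅ ∅ ∅ = 1 := by
  ext f x
  simp [W_apply]

lemma W_star {a b p q : Finset ℕ} (h : sg p a * sg q b = 1) : star (W a b p q) = W a b p q := by
  have h1 : W a b p q * W a b p q = 1 := by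
    rw [W_mul, h]; simp [W_one]
  rw [ContinuousLinearMap.star_eq_adjoint]
  symm
  rw [ContinuousLinearMap.eq_adjoint_iff]
  intro f g
  rw [← W_inner a b p q f, ← mul_ap (W a b p q) (W a b p q) g, h1]
  rfl

def X (a : Finset ℕ) : Op := W a ∅ ∅ ∅
def Z (b : Finset ℕ) : Op := W ∅ b b ∅
def X' (a : Finset ℕ) : Op := W a ∅ ∅ a
def Z' (b : Finset ℕ) : Op := W ∅ b ∅ ∅

lemma X_star (a : Finset ℕ) : star (X a) = X a := W_star (by simp)
lemma Z_star (a : Finset ℕ) : star (Z a) = Z a := W_star (by simp)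
lemma X'_star (a : Finset ℕ) : star (X' a) = X' a := W_star (by simp)
lemma Z'_star (a : Finset ℕ) : star (Z' a) = Z' a := W_star (by simp)

lemma X_mul (a b : Finset ℕ) : X a * X b = X (a ∆ b) := by simp [X, W_mul]
lemma Z_mul (a b : Finset ℕ) : Z a * Z b = Z (a ∆ b) := by simp [Z, W_mul]
lemma Z'_mul (a b : Finset ℕ) : Z' a * Z' b = Z' (a ∆ b) := by simp [Z', W_mul]
lemma X_empty : X ∅ = 1 := W_one
lemma Z_empty : Z ∅ = 1 := W_one
lemma Z'_empty : Z' ∅ = 1 := W_one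
lemma X_sq (a : Finset ℕ) : X a * X a = 1 := by rw [X_mul, sd_self, X_empty]

lemma X_Z (a b : Finset ℕ) : X a * Z b = sg b a • (Z b * X a) := by simp [X, Z, W_mul]

lemma X_norm (a : Finset ℕ) (f : H) : ‖X a f‖ = ‖f‖ := W_norm _ _ _ _ f
lemma Z_norm (a : Finset ℕ) (f : H) : ‖Z a f‖ = ‖f‖ := W_norm _ _ _ _ f
lemma X'_norm (a : Finset ℕ) (f : H) : ‖X' a f‖ = ‖f‖ := W_norm _ _ _ _ f

/-- The left von Neumann algebra. -/
def N : StarSubalgebra ℂ Op := StarSubalgebra.centralizer ℂ (Set.range X' ∪ Set.range Z')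

lemma mem_N {A : Op} : A ∈ N ↔ ∀ a, X' a * A = A * X' a ∧ Z' a * A = A * Z' a := by
  unfold N
  rw [StarSubalgebra.mem_centralizer_iff]
  constructor
  · intro h a
    exact ⟨(h _ (Or.inl ⟨a, rfl⟩)).1, (h _ (Or.inr ⟨a, rfl⟩)).1⟩
  · rintro h g (⟨a, rfl⟩ | ⟨a, rfl⟩)
    · rw [X'_star]; exact ⟨(h a).1, (h a).1⟩
    · rw [Z'_star]; exact ⟨(h a).2, (h a).2⟩

lemma X_mem (a : Finset ℕ) : X a ∈ N := mem_N.mpr fun b => by
  simp [X, X', Z', W_mul, symmDiff_comm]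

lemma Z_mem (a : Finset ℕ) : Z a ∈ N := mem_N.mpr fun b => by
  simp [Z, X', Z', W_mul, symmDiff_comm, sg_comm]

def dl (x : Λ) : H := lp.single 2 x (1 : ℂ)

def ξ : H := dl (∅, ∅)

lemma dl_apply (x y : Λ) : dl x y = if y = x then 1 else 0 := by
  unfold dl
  rw [lp.single_apply, Pi.single_apply]

lemma dl_norm (x : Λ) : ‖dl x‖ = 1 := by
  unfold dl
  rw [lp.norm_single (by norm_num)]
  simp

lemma inner_dl (x : Λ) (f : H) : inner ℂ (dl x) f = f x := by
  unfold dl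
  rw [lp.inner_single_left]
  simp

lemma W_ξ (a b p q : Finset ℕ) : W a b p q ξ = (sg p a * sg q b) • dl (a, b) := by
  ext x
  rw [W_apply]
  simp only [ξ, dl_apply, lp.coeFn_smul, Pi.smul_apply, smul_eq_mul, Prod.mk.injEq]
  by_cases h : x = (a, b)
  · subst h; simp
  · rw [if_neg h, if_neg, mul_zero, mul_zero]
    rintro ⟨h1, h2⟩
    exact h (Prod.ext (symmDiff_eq_bot.mp h1) (symmDiff_eq_bot.mp h2))

lemma X_ξ (a : Finset ℕ) : X a ξ = X' a ξ := by simp [X, X', W_ξ]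

lemma Z_ξ (a : Finset ℕ) : Z a ξ = Z' a ξ := by simp [Z, Z', W_ξ]

lemma Z_ξ' (a : Finset ℕ) : Z a ξ = dl (∅, a) := by simp [Z, W_ξ]

lemma dl_left (a b : Finset ℕ) : dl (a, b) = X a (Z b ξ) := by
  rw [← mul_ap]
  simp [X, Z, W_mul, W_ξ, smul_smul, sg_sq]

lemma dl_right (a b : Finset ℕ) : dl (a, b) = Z' b (X' a ξ) := by
  rw [← mul_ap]
  simp [X', Z', W_mul, W_ξ, smul_smul, sg_sq]

lemma N_dl {A : Op} (hA : A ∈ N) (a b : Finset ℕ) : A (dl (a, b)) = Z' b (X' a (A ξ)) := by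
  rw [dl_right, ← mul_ap, ← (mem_N.mp hA b).2,
    mul_ap, ← mul_ap A, ← (mem_N.mp hA a).1]
  rfl

lemma hasSum_dl (f : H) : HasSum (fun x => f x • dl x) f := by
  have := lp.hasSum_single (by norm_num) f
  convert this using 2 with x
  unfold dl
  rw [← lp.single_smul]
  simp

lemma faithful {A : Op} (hA : A ∈ N) (h : A ξ = 0) : A = 0 := by
  ext1 f
  have h1 := (hasSum_dl f).mapL A
  have h2 : ∀ x : Λ, A (f x • dl x) = 0 := fun x => by
    rw [map_smul, show x = (x.1, x.2) from rfl, N_dl hA, h]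
    simp
  simp only [h2] at h1
  exact h1.unique hasSum_zero

lemma norm_star_ξ {A : Op} (hA : A ∈ N) : ‖star A ξ‖ = ‖A ξ‖ := by
  refine norm_eq_of_hasSum (Equiv.refl _) fun x => ?_
  rw [← inner_dl, ContinuousLinearMap.star_eq_adjoint, ContinuousLinearMap.adjoint_inner_right,
    show x = (x.1, x.2) from rfl, N_dl hA, norm_inner_symm, ξ, inner_dl]
  simp [Z', X', W_apply]

end

end Vale.Agent.P131
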