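import Vale.Agent.P131.Bessel

namespace Vale.Agent.P131

open scoped symmDiff
open Finset

noncomputable section

def pos (r : ℕ) : Finset ℕ := equivBitIndices r

lemma pos_val (r : ℕ) : ∑ i ∈ pos r, 2 ^ i = r := equivBitIndices.symm_apply_apply r

lemma pos_of (a : Finset ℕ) : pos (∑ i ∈ a, 2 ^ i) = a := equivBitIndices.apply_symm_apply a

lemma pos_inj {r r' : ℕ} (h : pos r = pos r') : r = r' := equivBitIndices.injective h

lemma pos_sub {r l : ℕ} (h : r < 2 ^ l) : pos r ⊆ range l := by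
  intro i hi
  have h1 : 2 ^ i ≤ ∑ i ∈ pos r, 2 ^ i := single_le_sum (f := fun i => 2 ^ i) (by simp) hi
  rw [pos_val] at h1
  exact mem_range.mpr ((Nat.pow_lt_pow_iff_right (by norm_num)).mp (h1.trans_lt h))

lemma pos_surj {a : Finset ℕ} {l : ℕ} (h : a ⊆ range l) : ∃ r < 2 ^ l, pos r = a :=
  ⟨_, Nat.geomSum_lt le_rfl fun _ hk => mem_range.mp (h hk), pos_of a⟩

lemma geo (k : ℕ) : ∑ i ∈ range k, 2 ^ i + 1 = 2 ^ k := by
  induction k with
  | zero => rfl
  | succ k ih => rw [sum_range_succ, pow_succ]; omega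

lemma pos_last {r l : ℕ} (h : r + 1 = 2 ^ l) : pos r = range l := by
  rw [← pos_of (range l)]
  congr 1
  have := geo l
  omega

lemma pos_succ {r l : ℕ} (h : r + 1 < 2 ^ l) :
    ∃ k < l, (∀ j < k, j ∈ pos r) ∧ k ∉ pos r ∧ pos (r + 1) = pos r ∆ range (k + 1) := by
  have ex : ∃ k, k ∉ pos r := Infinite.exists_notMem_finset _
  have h1 : Nat.find ex ∉ pos r := Nat.find_spec ex
  have h2 : ∀ j < Nat.find ex, j ∈ pos r := fun j hj => not_not.mp (Nat.find_min ex hj)
  generalize Nat.find ex = k at h1 h2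
  have e1 : pos r = range k ∪ (pos r \ range (k + 1)) := by
    ext i
    simp only [mem_union, mem_range, mem_sdiff]
    constructor
    · intro hi
      have : i ≠ k := fun hh => h1 (hh ▸ hi)
      by_cases hk : i < k
      · exact Or.inl hk
      · exact Or.inr ⟨hi, by omega⟩
    · rintro (hi | hi)
      · exact h2 i hi
      · exact hi.1
  have e2 : pos r ∆ range (k + 1) = insert k (pos r \ range (k + 1)) := by
    ext i
    simp only [mem_symmDiff, mem_range, mem_insert, mem_sdiff]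
    constructor
    · rintro (hi | hi)
      · exact Or.inr hi
      · refine Or.inl ?_
        by_contra hk
        exact hi.2 (h2 i (by omega))
    · rintro (rfl | hi)
      · exact Or.inr ⟨by omega, h1⟩
      · exact Or.inl hi
  have e3 : pos (r + 1) = pos r ∆ range (k + 1) := by
    rw [← pos_of (pos r ∆ range (k + 1)), e2, sum_insert (by simp)]
    congr 1
    have h3 := pos_val r
    rw [e1, sum_union (by
      rw [disjoint_left]
      intro i hi hi'
      simp only [mem_range, mem_sdiff] at hi hi'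
      omega)] at h3
    have := geo k
    omega
  refine ⟨k, mem_range.mp (pos_sub h ?_), h2, h1, e3⟩
  rw [e3, e2]
  exact mem_insert_self _ _

def E (m : ℕ) (ω S : Finset ℕ) : ℂ := ind (S ∩ range m = ω)

lemma cyl_E (m : ℕ) (ω : Finset ℕ) : Cyl (E m ω) := (Cyl.inter _).map fun S => ind (S = ω)

lemma E_shift {m : ℕ} {b : Finset ℕ} (hb : b ⊆ range m) (ω : Finset ℕ) :
    (fun S => E m ω (S ∆ b)) = E m (ω ∆ b) := by
  funext S
  unfold E
  congr 1
  rw [inter_comm, inter_comm S, ← inf_eq_inter, inf_symmDiff_distrib_left, inf_eq_inter,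
    inf_eq_inter, inter_eq_right.mpr hb]
  apply propext
  constructor
  · rintro rfl; simp
  · intro h; rw [h]; simp

lemma E_mem {m i : ℕ} {ω S : Finset ℕ} (h : E m ω S ≠ 0) (hi : i < m) : i ∈ S ↔ i ∈ ω := by
  rw [← of_ind h]
  simp [hi]

lemma E_dep {m : ℕ} {χ : Finset ℕ → ℂ} (h : Dep m χ) (ω : Finset ℕ) :
    (fun S => χ S * E m ω S) = fun S => χ ω * E m ω S := by
  funext S
  by_cases hS : E m ω S = 0
  · rw [hS, mul_zero, mul_zero]
  · rw [h S ω fun i hi => E_mem hS hi]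

lemma E_sum {z : ℕ → Op} (hz : Fam z) {m : ℕ} {b : Finset ℕ} (hb : b ⊆ range m) (v : H) :
    ∑ ω ∈ (range m).powerset, ‖DD z (E m (ω ∆ b)) v‖ ^ 2 = ‖v‖ ^ 2 := by
  rw [DD_pyth hz _ (fun _ _ => cyl_E _ _) (Cyl.const 1), DD_one]
  · rfl
  · intro S
    rw [sum_eq_single ((S ∩ range m) ∆ b)]
    · simp [E, ind]
    · intro ω _ hω
      rw [E, ind_neg]
      · simp
      · intro h
        exact hω (by rw [h]; simp)
    · intro h
      refine absurd (mem_powerset.mpr ?_) h
      exact symmDiff_subset_union.trans (union_subset inter_subset_right hb)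

lemma dep_sg {m : ℕ} {β : Finset ℕ} (h : β ⊆ range m) : Dep m (sg β) := fun S S' hS =>
  prod_congr rfl fun i hi => by simp only [hS i (mem_range.mp (h hi))]

lemma Z_E {m : ℕ} {β : Finset ℕ} (h : β ⊆ range m) (ω : Finset ℕ) (v : H) :
    Z β (DL (E m ω) v) = sg β ω • DL (E m ω) v := by
  rw [Z_eq, ← mul_ap, DL_mul (cyl_sg _) (cyl_E _ _), E_dep (dep_sg h), DL,
    DD_smul _ (cyl_E _ _)]
  rfl

lemma E_orth {m : ℕ} {ω ω' : Finset ℕ} (h : ω ≠ ω') (v v' : H) :
    inner ℂ (DL (E m ω) v) (DL (E m ω') v') = 0 := by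
  rw [← ContinuousLinearMap.adjoint_inner_right, ← ContinuousLinearMap.star_eq_adjoint, DL,
    DD_star famL (cyl_E _ _), ← mul_ap, DL, DD_mul famL ((cyl_E _ _).map star) (cyl_E _ _)]
  have : (fun S => star (E m ω S) * E m ω' S) = fun _ => 0 := funext fun S => by
    by_cases h1 : S ∩ range m = ω
    · rw [E, E, ind_neg (p := S ∩ range m = ω') fun h2 => h (h1.symm.trans h2), mul_zero]
    · rw [E, ind_neg h1, star_zero, zero_mul]
  rw [this, DD_zero]
  simp

lemma mass (π : H) (F : Finset ℕ) {κ τ : ℝ} (hτ : 0 < τ)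
    (hκ : ∀ G : Finset ℕ, Disjoint G F → ∑ i ∈ G, ‖Z {i} π - Z' {i} π‖ ^ 2 ≤ κ) :
    ∃ s : Finset Λ, (∀ x ∈ s, x.1 ⊆ F) ∧ ‖π - ∑ x ∈ s, π x • dl x‖ ^ 2 ≤ τ + κ := by
  have hp : 0 < (2 : ENNReal).toReal := by norm_num
  have h1 := lp.hasSum_norm hp π
  simp only [ENNReal.toReal_ofNat, Real.rpow_ofNat] at h1
  obtain ⟨s0, hs0⟩ := (h1.eventually (lt_mem_nhds (sub_lt_self _ hτ))).exists
  refine ⟨s0.filter (·.1 ⊆ F), fun x hx => (mem_filter.mp hx).2, ?_⟩
  have h2 := lp.norm_compl_sum_single hp π (s0.filter (·.1 ⊆ F))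
  simp only [ENNReal.toReal_ofNat, Real.rpow_ofNat] at h2
  have h3 : ∀ x : Λ, π x • dl x = lp.single 2 x (π x) := fun x => by
    unfold dl
    rw [← lp.single_smul]
    simp
  simp only [h3]
  rw [h2]
  have h4 := sum_filter_add_sum_filter_not s0 (·.1 ⊆ F) fun x => ‖π x‖ ^ 2
  have h5 : ∑ x ∈ s0 with ¬ x.1 ⊆ F, ‖π x‖ ^ 2 ≤
      ∑ i ∈ s0.biUnion (·.1) \ F, ‖Z {i} π - Z' {i} π‖ ^ 2 := by
    calc ∑ x ∈ s0 with ¬ x.1 ⊆ F, ‖π x‖ ^ 2
        ≤ ∑ x ∈ s0, ∑ i ∈ s0.biUnion (·.1) \ F, if i ∈ x.1 then ‖π x‖ ^ 2 else 0 := by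
          rw [sum_filter]
          refine sum_le_sum fun x hx => ?_
          have h0 : ∀ i ∈ s0.biUnion (·.1) \ F, 0 ≤ if i ∈ x.1 then ‖π x‖ ^ 2 else 0 :=
            fun i _ => by split_ifs <;> positivity
          split_ifs with hF
          · exact sum_nonneg h0
          · obtain ⟨i, hi, hiF⟩ := not_subset.mp hF
            have := single_le_sum h0 (mem_sdiff.mpr ⟨mem_biUnion.mpr ⟨x, hx, hi⟩, hiF⟩)
            rwa [if_pos hi] at this
      _ ≤ _ := by
          rw [sum_comm]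
          refine sum_le_sum fun i _ => ?_
          have h6 := sum_sq_le (Z' {i} (Z {i} π - Z' {i} π)) s0
          rw [Z', W_norm] at h6
          refine le_trans (sum_le_sum fun x _ => ?_) h6
          split_ifs with hi
          · have : W ∅ {i} ∅ ∅ (Z {i} π - W ∅ {i} ∅ ∅ π) x = -2 * π x := by
              simp [W_apply, Z, sg_single, hi]
              ring
            rw [this, norm_mul]
            simp only [norm_neg, Complex.norm_ofNat]
            nlinarith [sq_nonneg ‖π x‖]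
          · positivity
  have h6 := hκ (s0.biUnion (·.1) \ F) sdiff_disjoint
  linarith

end

end Vale.Agent.P131
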